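import Mathlib

open Finset

namespace Vale.Agent.Lib.P037

/-- crossing lemma for two integer sequences -/
theorem crossing (m : ℕ) (a b : ℕ → ℕ) (Z : ℕ)
    (ha0 : a 0 = 0) (hbm : b m = 0) (hZ : ∀ t < m, a (t + 1) * b t ≤ Z) :
    ∃ t ≤ m, (a t + b t) ^ 2 ≤ 4 * Z := by
  classical
  set P : ℕ → Prop := fun t => a t ≤ b t with hP
  have hP0 : P 0 := by simp [hP, ha0]
  set t0 := Nat.findGreatest P m with ht0
  have h1 : P t0 := Nat.findGreatest_spec (Nat.zero_le m) hP0
  have h2 : t0 ≤ m := Nat.findGreatest_le m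
  rcases Nat.lt_or_ge t0 m with hlt | hge
  · have h3 : ¬ P (t0 + 1) := Nat.findGreatest_is_greatest (Nat.lt_succ_self _) hlt
    have h3' : b (t0 + 1) < a (t0 + 1) := by
      simpa [hP, not_le] using h3
    have h1' : a t0 ≤ b t0 := h1
    have h4 := hZ t0 hlt
    rcases le_or_gt (b t0) (a (t0 + 1)) with hc | hc
    · refine ⟨t0, h2, ?_⟩
      nlinarith
    · refine ⟨t0 + 1, hlt, ?_⟩
      nlinarith
  · have : t0 = m := le_antisymm h2 hge
    refine ⟨m, le_refl m, ?_⟩
    have h1' : a t0 ≤ b t0 := h1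
    rw [this, hbm] at h1'
    have : a m = 0 := Nat.le_zero.mp h1'
    simp [this, hbm]

/-- a 0/1 vector is close to a threshold set of `d` if few pairs are out of order -/
theorem threshold_approx {ι : Type*} [Fintype ι] [DecidableEq ι] (d : ι → ℕ) (S : ι → Bool)
    (θ : ℕ → ℕ) (Δ m : ℕ) (h0 : θ 0 = 0) (hstep : ∀ t, θ (t + 1) ≤ θ t + Δ)
    (hm : ∀ c, d c < θ m) :
    ∃ t ≤ m, ((univ.filter fun c => S c ≠ decide (θ t ≤ d c)).card) ^ 2 ≤
      4 * (univ.filter fun p : ι × ι => S p.1 = true ∧ S p.2 = false ∧ d p.1 < d p.2 + Δ).card := by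
  classical
  set a : ℕ → ℕ := fun t => (univ.filter fun c => S c = true ∧ d c < θ t).card with ha
  set b : ℕ → ℕ := fun t => (univ.filter fun c => S c = false ∧ θ t ≤ d c).card with hb
  have key : ∀ t, (univ.filter fun c => S c ≠ decide (θ t ≤ d c)).card = a t + b t := by
    intro t
    rw [ha, hb]
    simp only
    rw [← card_union_of_disjoint]
    · congr 1
      ext c
      simp only [mem_filter, mem_univ, true_and, mem_union]
      cases hS : S c <;> by_cases hd : θ t ≤ d c <;> simp [hd] <;> omega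
    · rw [disjoint_left]
      intro c hc hc'
      simp only [mem_filter, mem_univ, true_and] at hc hc'
      rw [hc.1] at hc'
      exact absurd hc'.1 (by simp)
  obtain ⟨t, ht, hh⟩ := crossing m a b
    ((univ.filter fun p : ι × ι => S p.1 = true ∧ S p.2 = false ∧ d p.1 < d p.2 + Δ).card)
    (by simp [ha, h0])
    (by
      simp only [hb]
      rw [card_eq_zero, filter_eq_empty_iff]
      intro c _ hc
      have := hm c
      omega)
    (by
      intro t _
      simp only [ha, hb]
      rw [← card_product]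
      apply card_le_card
      intro p hp
      simp only [mem_product, mem_filter, mem_univ, true_and] at hp ⊢
      refine ⟨hp.1.1, hp.2.1, ?_⟩
      have := hstep t
      omega)
  exact ⟨t, ht, by rw [key]; exact hh⟩

/-- one-dimensional cleaning: kill all pairs `P` before `Q` -/
theorem order_clean {n : ℕ} (P Q : Finset (Fin n)) (hPQ : Disjoint P Q) :
    ∃ X : Finset (Fin n), X.card ^ 2 ≤ 4 * ((P ×ˢ Q).filter fun p => p.1 < p.2).card ∧
      ∀ c1 ∈ P, ∀ c2 ∈ Q, c1 ∉ X → c2 ∉ X → ¬ c1 < c2 := by
  classical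
  set a : ℕ → ℕ := fun t => (P.filter fun c => c.val < t).card with ha
  set b : ℕ → ℕ := fun t => (Q.filter fun c => t ≤ c.val).card with hb
  obtain ⟨t, _, hh⟩ := crossing n a b (((P ×ˢ Q).filter fun p => p.1 < p.2).card)
    (by simp [ha])
    (by
      simp only [hb]
      rw [card_eq_zero, filter_eq_empty_iff]
      intro c _ hc
      have := c.isLt
      omega)
    (by
      intro t _
      simp only [ha, hb]
      rw [← card_product]
      apply card_le_card
      intro p hp
      simp only [mem_product, mem_filter] at hp ⊢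
      refine ⟨⟨hp.1.1, hp.2.1⟩, ?_⟩
      have hne : p.1 ≠ p.2 := by
        intro he
        exact (disjoint_left.mp hPQ hp.1.1) (he ▸ hp.2.1)
      have hne' : p.1.val ≠ p.2.val := fun he => hne (Fin.ext he)
      rw [Fin.lt_def]
      omega)
  refine ⟨(P.filter fun c => c.val < t) ∪ (Q.filter fun c => t ≤ c.val), ?_, ?_⟩
  · calc ((P.filter fun c => c.val < t) ∪ (Q.filter fun c => t ≤ c.val)).card ^ 2
        ≤ (a t + b t) ^ 2 := by
          apply Nat.pow_le_pow_left
          exact card_union_le _ _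
      _ ≤ _ := hh
  · intro c1 h1 c2 h2 hx1 hx2 hlt
    simp only [mem_union, mem_filter, not_or, not_and] at hx1 hx2
    have e1 := hx1.1 h1
    have e2 := hx2.2 h2
    rw [Fin.lt_def] at hlt
    omega

end Vale.Agent.Lib.P037
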