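import Mathlib

namespace Vale.Agent.Lib.P037

/-- the set of ordered copies of the `k × k` pattern `H` in the `n × n` matrix `A`:
increasing choices of `k` rows and of `k` columns on which `A` agrees with `H` -/
def copies {k n : ℕ} (H : Fin k → Fin k → Bool) (A : Fin n → Fin n → Bool) :
    Set ((Fin k → Fin n) × (Fin k → Fin n)) :=
  {p | StrictMono p.1 ∧ StrictMono p.2 ∧ ∀ i j, A (p.1 i) (p.2 j) = H i j}

/-- the number `N_H(A)` of ordered copies -/
noncomputable def copyCount {k n : ℕ} (H : Fin k → Fin k → Bool) (A : Fin n → Fin n → Bool) : ℕ :=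
  (copies H A).ncard

/-- `A` is `H`-free -/
def IsFree {k n : ℕ} (H : Fin k → Fin k → Bool) (A : Fin n → Fin n → Bool) : Prop :=
  copies H A = ∅

/-- the number of entries in which `A` and `B` differ -/
def hamming {n : ℕ} (A B : Fin n → Fin n → Bool) : ℕ :=
  (Finset.univ.filter fun p : Fin n × Fin n => A p.1 p.2 ≠ B p.1 p.2).card

end Vale.Agent.Lib.P037
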