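import Mathlib
import Vale.Agent.Lib.P037.Abstract
import Vale.Agent.Lib.P037.Defs

open Finset

namespace Vale.Agent.Lib.P037

variable {n : ℕ}

/-- increasing pairs inside a set -/
def prs (S : Finset (Fin n)) : ℕ := ((S ×ˢ S).filter fun p => p.1 < p.2).card

theorem sq_le_prs (S : Finset (Fin n)) : S.card ^ 2 ≤ 2 * prs S + S.card := by
  classical
  have hsub : S ×ˢ S ⊆ ((S ×ˢ S).filter fun p => p.1 < p.2) ∪
      ((((S ×ˢ S).filter fun p => p.1 < p.2).image fun p => (p.2, p.1)) ∪ S.diag) := by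
    intro p hp
    rw [mem_product] at hp
    simp only [mem_union, mem_filter, mem_product, mem_image, mem_diag]
    rcases lt_trichotomy p.1 p.2 with h | h | h
    · exact Or.inl ⟨hp, h⟩
    · exact Or.inr (Or.inr ⟨hp.1, h⟩)
    · exact Or.inr (Or.inl ⟨(p.2, p.1), ⟨⟨hp.2, hp.1⟩, h⟩, rfl⟩)
  have h1 := card_le_card hsub
  rw [card_product] at h1
  have h2 := card_union_le ((S ×ˢ S).filter fun p => p.1 < p.2)
      ((((S ×ˢ S).filter fun p => p.1 < p.2).image fun p => (p.2, p.1)) ∪ S.diag)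
  have h3 := card_union_le (((S ×ˢ S).filter fun p => p.1 < p.2).image fun p => (p.2, p.1)) S.diag
  have h4 : (((S ×ˢ S).filter fun p => p.1 < p.2).image fun p => (p.2, p.1)).card ≤
      ((S ×ˢ S).filter fun p => p.1 < p.2).card := card_image_le
  rw [diag_card] at h3
  unfold prs
  have : S.card ^ 2 = S.card * S.card := by ring
  omega

theorem stage_le {ι : Type*} (I : Finset ι) (T : ι → Finset (Fin n)) :
    (∑ i ∈ I, (T i).card) ^ 2 ≤ I.card * (2 * ∑ i ∈ I, prs (T i) + ∑ i ∈ I, (T i).card) := by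
  have h1 := sq_sum_le_card_mul_sum_sq (s := I) (f := fun i => (T i).card)
  refine le_trans h1 (Nat.mul_le_mul_left _ ?_)
  rw [mul_sum, ← sum_add_distrib]
  exact sum_le_sum fun i _ => sq_le_prs (T i)

theorem easy_arith (n K W N : ℕ) (hK : 0 < K) (hN : 0 < N)
    (h1 : 8 * K ^ 2 ≤ n → n ^ 3 ≤ 4 * K ^ 2 * W) (h2 : W ^ 2 ≤ n ^ 2 * (2 * N + W)) :
    n ^ 4 ≤ 2 ^ 12 * K ^ 8 * N := by
  rcases Nat.lt_or_ge n (8 * K ^ 2) with hlt | hge
  · calc n ^ 4 ≤ (8 * K ^ 2) ^ 4 := Nat.pow_le_pow_left hlt.le 4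
      _ = 2 ^ 12 * K ^ 8 * 1 := by ring
      _ ≤ _ := Nat.mul_le_mul_left _ hN
  · have h3 := h1 hge
    have hn : 0 < n := lt_of_lt_of_le (by positivity) hge
    have h4 : 4 * K ^ 2 * (2 * n ^ 2) ≤ 4 * K ^ 2 * W := by
      calc 4 * K ^ 2 * (2 * n ^ 2) = (8 * K ^ 2) * n ^ 2 := by ring
        _ ≤ n * n ^ 2 := Nat.mul_le_mul_right _ hge
        _ = n ^ 3 := by ring
        _ ≤ _ := h3
    have h5 : 2 * n ^ 2 ≤ W := Nat.le_of_mul_le_mul_left h4 (by positivity)
    have h6 : W ^ 2 ≤ 4 * n ^ 2 * N := by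
      have e1 : 2 * (n ^ 2 * W) ≤ W ^ 2 := by
        calc 2 * (n ^ 2 * W) = (2 * n ^ 2) * W := by ring
          _ ≤ W * W := Nat.mul_le_mul_right _ h5
          _ = W ^ 2 := by ring
      have e2 : n ^ 2 * (2 * N + W) = 2 * n ^ 2 * N + n ^ 2 * W := by ring
      have e3 : 4 * n ^ 2 * N = 2 * (2 * n ^ 2 * N) := by ring
      omega
    have h7 : n ^ 2 * n ^ 4 ≤ n ^ 2 * (64 * K ^ 4 * N) := by
      calc n ^ 2 * n ^ 4 = (n ^ 3) ^ 2 := by ring
        _ ≤ (4 * K ^ 2 * W) ^ 2 := Nat.pow_le_pow_left h3 2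
        _ = 16 * K ^ 4 * W ^ 2 := by ring
        _ ≤ 16 * K ^ 4 * (4 * n ^ 2 * N) := Nat.mul_le_mul_left _ h6
        _ = _ := by ring
    have h8 : n ^ 4 ≤ 64 * K ^ 4 * N := Nat.le_of_mul_le_mul_left h7 (by positivity)
    calc n ^ 4 ≤ 64 * K ^ 4 * N := h8
      _ ≤ 2 ^ 12 * K ^ 8 * N := by
          apply Nat.mul_le_mul_right
          exact Nat.mul_le_mul (by norm_num) (Nat.pow_le_pow_right hK (by norm_num))

theorem card_pairs_le : (univ.filter fun p : Fin n × Fin n => p.1 < p.2).card ≤ n ^ 2 := by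
  calc _ ≤ (univ : Finset (Fin n × Fin n)).card := card_le_card (subset_univ _)
    _ = n ^ 2 := by simp [sq]

/-! ### the pattern `[[1,1],[0,0]]` -/

/-- number of copies of `[[1,1],[0,0]]` -/
def NR (A : Fin n → Fin n → Bool) : ℕ :=
  (univ.filter fun q : (Fin n × Fin n) × (Fin n × Fin n) =>
    q.1.1 < q.1.2 ∧ q.2.1 < q.2.2 ∧ A q.1.1 q.2.1 = true ∧ A q.1.1 q.2.2 = true ∧
      A q.1.2 q.2.1 = false ∧ A q.1.2 q.2.2 = false).card

/-- columns with a one above a zero in the two given rows -/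
def TR (A : Fin n → Fin n → Bool) (p : Fin n × Fin n) : Finset (Fin n) :=
  univ.filter fun c => A p.1 c = true ∧ A p.2 c = false

theorem sum_prs_TR (A : Fin n → Fin n → Bool) :
    ∑ p ∈ univ.filter (fun p : Fin n × Fin n => p.1 < p.2), prs (TR A p) = NR A := by
  classical
  unfold NR
  rw [card_eq_sum_card_fiberwise (f := fun q : (Fin n × Fin n) × (Fin n × Fin n) => q.1)
    (t := univ.filter (fun p : Fin n × Fin n => p.1 < p.2))]
  · apply sum_congr rfl
    intro p hp
    simp only [mem_filter, mem_univ, true_and] at hp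
    unfold prs TR
    apply card_bij (fun r _ => (p, r))
    · intro r hr
      simp only [mem_filter, mem_univ, true_and, mem_product] at hr ⊢
      exact ⟨⟨hp, hr.2, hr.1.1.1, hr.1.2.1, hr.1.1.2, hr.1.2.2⟩, trivial⟩
    · intro r _ r' _ hrr
      exact (Prod.mk.inj hrr).2
    · intro q hq
      simp only [mem_filter, mem_univ, true_and] at hq
      refine ⟨q.2, ?_, ?_⟩
      · simp only [mem_filter, mem_univ, true_and, mem_product]
        rw [← hq.2]
        exact ⟨⟨⟨hq.1.2.2.1, hq.1.2.2.2.2.1⟩, hq.1.2.2.2.1, hq.1.2.2.2.2.2⟩, hq.1.2.1⟩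
      · rw [← hq.2]
  · intro q hq
    simp only [coe_filter, mem_univ, true_and, Set.mem_setOf_eq] at hq ⊢
    exact hq.1

theorem natR (K : ℕ) (hK : 0 < K) (A : Fin n → Fin n → Bool) (hN : 0 < NR A)
    (hfar : ∀ B : Fin n → Fin n → Bool,
      (∀ r1 r2 c : Fin n, r1 < r2 → B r1 c = true → B r2 c = true) → n ^ 2 ≤ K * hamming A B) :
    n ^ 4 ≤ 2 ^ 12 * K ^ 8 * NR A := by
  classical
  set W := ∑ p ∈ univ.filter (fun p : Fin n × Fin n => p.1 < p.2), (TR A p).card with hW
  have hst := stage_le (univ.filter (fun p : Fin n × Fin n => p.1 < p.2)) (TR A)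
  rw [sum_prs_TR, ← hW] at hst
  have h2 : W ^ 2 ≤ n ^ 2 * (2 * NR A + W) :=
    le_trans hst (Nat.mul_le_mul_right _ card_pairs_le)
  apply easy_arith n K W (NR A) hK hN _ h2
  intro _
  -- sort every column
  have hcol : ∀ c : Fin n, ∃ t ≤ n,
      ((univ.filter fun r : Fin n => A r c ≠ decide (t ≤ r.val)).card) ^ 2 ≤
      4 * (univ.filter fun p : Fin n × Fin n => A p.1 c = true ∧ A p.2 c = false ∧
        p.1.val < p.2.val + 1).card := by
    intro c
    exact threshold_approx (fun r : Fin n => r.val) (fun r => A r c) (fun t => t) 1 n rfl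
      (fun t => le_refl _) (fun r => r.isLt)
  choose t _ ht using hcol
  have hfar' := hfar (fun r c => decide (t c ≤ r.val)) (by
    intro r1 r2 c hr h1
    simp only [decide_eq_true_eq] at h1 ⊢
    have : r1.val < r2.val := hr
    omega)
  have hham : hamming A (fun r c => decide (t c ≤ r.val)) =
      ∑ c : Fin n, (univ.filter fun r : Fin n => A r c ≠ decide (t c ≤ r.val)).card := by
    unfold hamming
    simp only [card_filter]
    rw [Fintype.sum_prod_type, sum_comm]
  have hWeq : ∑ c : Fin n, (univ.filter fun p : Fin n × Fin n => A p.1 c = true ∧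
      A p.2 c = false ∧ p.1.val < p.2.val + 1).card ≤ W := by
    rw [hW]
    unfold TR
    simp only [card_filter]
    rw [sum_comm, sum_filter]
    apply sum_le_sum
    intro p _
    by_cases hp : p.1 < p.2
    · rw [if_pos hp]
      apply sum_le_sum
      intro c _
      by_cases h1 : A p.1 c = true ∧ A p.2 c = false
      · rw [if_pos h1]
        split_ifs <;> omega
      · have : ¬ (A p.1 c = true ∧ A p.2 c = false ∧ p.1.val < p.2.val + 1) :=
          fun h => h1 ⟨h.1, h.2.1⟩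
        rw [if_neg this]
        exact Nat.zero_le _
    · rw [if_neg hp]
      apply le_of_eq
      apply sum_eq_zero
      intro c _
      rw [if_neg]
      rintro ⟨h1, h2, h3⟩
      apply hp
      have hne : p.1 ≠ p.2 := by
        intro he
        rw [he, h2] at h1
        exact absurd h1 (by simp)
      have hne' : p.1.val ≠ p.2.val := fun he => hne (Fin.ext he)
      rw [Fin.lt_def]
      omega
  have hsq : (hamming A (fun r c => decide (t c ≤ r.val))) ^ 2 ≤ 4 * n * W := by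
    rw [hham]
    have h1 := sq_sum_le_card_mul_sum_sq (s := (univ : Finset (Fin n)))
      (f := fun c => (univ.filter fun r : Fin n => A r c ≠ decide (t c ≤ r.val)).card)
    simp only [card_univ, Fintype.card_fin] at h1
    calc _ ≤ _ := h1
      _ ≤ n * ∑ c : Fin n, 4 * (univ.filter fun p : Fin n × Fin n => A p.1 c = true ∧
          A p.2 c = false ∧ p.1.val < p.2.val + 1).card :=
          Nat.mul_le_mul_left _ (sum_le_sum fun c _ => ht c)
      _ = 4 * n * ∑ c : Fin n, (univ.filter fun p : Fin n × Fin n => A p.1 c = true ∧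
          A p.2 c = false ∧ p.1.val < p.2.val + 1).card := by
          rw [← mul_sum]; ring
      _ ≤ _ := Nat.mul_le_mul_left _ hWeq
  rcases Nat.eq_zero_or_pos n with hn | hn
  · rw [hn]; simp
  have h5 : n * n ^ 3 ≤ n * (4 * K ^ 2 * W) := by
    calc n * n ^ 3 = (n ^ 2) ^ 2 := by ring
      _ ≤ (K * hamming A (fun r c => decide (t c ≤ r.val))) ^ 2 := Nat.pow_le_pow_left hfar' 2
      _ = K ^ 2 * (hamming A (fun r c => decide (t c ≤ r.val))) ^ 2 := by ring
      _ ≤ K ^ 2 * (4 * n * W) := Nat.mul_le_mul_left _ hsq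
      _ = _ := by ring
  exact Nat.le_of_mul_le_mul_left h5 hn

end Vale.Agent.Lib.P037
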