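import Mathlib
import Vale.Agent.Lib.P037.Easy

open Finset

namespace Vale.Agent.Lib.P037

variable {n : ℕ}

/-! ### the all ones pattern -/

/-- number of copies of `[[1,1],[1,1]]` -/
def NJ (A : Fin n → Fin n → Bool) : ℕ :=
  (univ.filter fun q : (Fin n × Fin n) × (Fin n × Fin n) =>
    q.1.1 < q.1.2 ∧ q.2.1 < q.2.2 ∧ A q.1.1 q.2.1 = true ∧ A q.1.1 q.2.2 = true ∧
      A q.1.2 q.2.1 = true ∧ A q.1.2 q.2.2 = true).card

/-- rows with ones in the two given columns -/
def TJ (A : Fin n → Fin n → Bool) (p : Fin n × Fin n) : Finset (Fin n) :=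
  univ.filter fun r => A r p.1 = true ∧ A r p.2 = true

/-- the ones of a row -/
def SJ (A : Fin n → Fin n → Bool) (r : Fin n) : Finset (Fin n) := univ.filter fun c => A r c = true

theorem sum_prs_TJ (A : Fin n → Fin n → Bool) :
    ∑ p ∈ univ.filter (fun p : Fin n × Fin n => p.1 < p.2), prs (TJ A p) = NJ A := by
  classical
  unfold NJ
  rw [card_eq_sum_card_fiberwise (f := fun q : (Fin n × Fin n) × (Fin n × Fin n) => q.2)
    (t := univ.filter (fun p : Fin n × Fin n => p.1 < p.2))]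
  · apply sum_congr rfl
    intro p hp
    simp only [mem_filter, mem_univ, true_and] at hp
    unfold prs TJ
    apply card_bij (fun r _ => (r, p))
    · intro r hr
      simp only [mem_filter, mem_univ, true_and, mem_product] at hr ⊢
      exact ⟨⟨hr.2, hp, hr.1.1.1, hr.1.1.2, hr.1.2.1, hr.1.2.2⟩, trivial⟩
    · intro r _ r' _ hrr
      exact (Prod.mk.inj hrr).1
    · intro q hq
      simp only [mem_filter, mem_univ, true_and] at hq
      refine ⟨q.1, ?_, ?_⟩
      · simp only [mem_filter, mem_univ, true_and, mem_product]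
        rw [← hq.2]
        exact ⟨⟨⟨hq.1.2.2.1, hq.1.2.2.2.1⟩, hq.1.2.2.2.2.1, hq.1.2.2.2.2.2⟩, hq.1.1⟩
      · rw [← hq.2]
  · intro q hq
    simp only [coe_filter, mem_univ, true_and, Set.mem_setOf_eq] at hq ⊢
    exact hq.2.1

theorem sum_prs_SJ (A : Fin n → Fin n → Bool) :
    ∑ r : Fin n, prs (SJ A r) =
      ∑ p ∈ univ.filter (fun p : Fin n × Fin n => p.1 < p.2), (TJ A p).card := by
  classical
  have h1 : ∀ r : Fin n, prs (SJ A r) = ∑ p : Fin n × Fin n,
      if p.1 < p.2 ∧ A r p.1 = true ∧ A r p.2 = true then 1 else 0 := by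
    intro r
    unfold prs SJ
    rw [← card_filter]
    congr 1
    ext p
    simp only [mem_filter, mem_univ, true_and, mem_product]
    tauto
  simp only [h1]
  rw [sum_comm, sum_filter]
  apply sum_congr rfl
  intro p _
  unfold TJ
  rw [card_filter]
  by_cases hp : p.1 < p.2
  · simp [hp]
  · simp [hp]

theorem natJ (K : ℕ) (hK : 0 < K) (A : Fin n → Fin n → Bool) (hN : 0 < NJ A)
    (hfar : n ^ 2 ≤ K * hamming A (fun _ _ => false)) :
    n ^ 4 ≤ 2 ^ 12 * K ^ 8 * NJ A := by
  classical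
  set W := ∑ p ∈ univ.filter (fun p : Fin n × Fin n => p.1 < p.2), (TJ A p).card with hW
  have hst := stage_le (univ.filter (fun p : Fin n × Fin n => p.1 < p.2)) (TJ A)
  rw [sum_prs_TJ, ← hW] at hst
  have h2 : W ^ 2 ≤ n ^ 2 * (2 * NJ A + W) :=
    le_trans hst (Nat.mul_le_mul_right _ card_pairs_le)
  apply easy_arith n K W (NJ A) hK hN _ h2
  intro hge
  set m := ∑ r : Fin n, (SJ A r).card with hm
  have hham : hamming A (fun _ _ => false) = m := by
    unfold hamming
    rw [hm]
    unfold SJ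
    simp only [card_filter]
    rw [Fintype.sum_prod_type]
    apply sum_congr rfl
    intro r _
    apply sum_congr rfl
    intro c _
    cases A r c <;> simp
  rw [hham] at hfar
  have hst1 := stage_le (univ : Finset (Fin n)) (SJ A)
  rw [sum_prs_SJ, ← hW, ← hm] at hst1
  simp only [card_univ, Fintype.card_fin] at hst1
  have hn : 0 < n := lt_of_lt_of_le (by positivity) hge
  have a1 : K * (2 * n) ≤ K * m := by
    calc K * (2 * n) ≤ (8 * K ^ 2) * n := by nlinarith [Nat.mul_le_mul hK hK, Nat.zero_le (K * n)]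
      _ ≤ n * n := Nat.mul_le_mul_right _ hge
      _ = n ^ 2 := by ring
      _ ≤ _ := hfar
  have a2 : 2 * n ≤ m := Nat.le_of_mul_le_mul_left a1 hK
  have a3 : m ^ 2 ≤ 4 * n * W := by
    have e1 : 2 * (n * m) ≤ m ^ 2 := by
      calc 2 * (n * m) = (2 * n) * m := by ring
        _ ≤ m * m := Nat.mul_le_mul_right _ a2
        _ = m ^ 2 := by ring
    have e2 : n * (2 * W + m) = 2 * (n * W) + n * m := by ring
    have e3 : 4 * n * W = 4 * (n * W) := by ring
    omega
  have a4 : n * n ^ 3 ≤ n * (4 * K ^ 2 * W) := by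
    calc n * n ^ 3 = (n ^ 2) ^ 2 := by ring
      _ ≤ (K * m) ^ 2 := Nat.pow_le_pow_left hfar 2
      _ = K ^ 2 * m ^ 2 := by ring
      _ ≤ K ^ 2 * (4 * n * W) := Nat.mul_le_mul_left _ a3
      _ = _ := by ring
  exact Nat.le_of_mul_le_mul_left a4 hn

end Vale.Agent.Lib.P037
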