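import Mathlib

namespace Vale.Agent.Lib.P037

theorem arithG_greedy (n K u N Hh m : ℕ) (hK : 0 < K) (hu : 0 < u)
    (hW2 : n < 2 ^ 40 * K ^ 7 * u)
    (h1 : Hh * ((32 * K * u) * u ^ 2) ≤ 2 * N) (h2 : m * (2 ^ 23 * K ^ 4 * u) ≤ n)
    (h3 : 2 ^ 23 * K ^ 4 * u ≤ Hh + m * (32 * K * u)) :
    n ^ 4 ≤ 2 ^ 160 * K ^ 28 * N := by
  have hm : m < 2 ^ 17 * K ^ 3 := by
    have : m * (2 ^ 23 * K ^ 4 * u) < (2 ^ 17 * K ^ 3) * (2 ^ 23 * K ^ 4 * u) := by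
      calc m * (2 ^ 23 * K ^ 4 * u) ≤ n := h2
        _ < 2 ^ 40 * K ^ 7 * u := hW2
        _ = _ := by ring
    exact Nat.lt_of_mul_lt_mul_right this
  have h4 : m * (32 * K * u) ≤ 2 ^ 22 * K ^ 4 * u := by
    calc m * (32 * K * u) ≤ (2 ^ 17 * K ^ 3) * (32 * K * u) := Nat.mul_le_mul_right _ hm.le
      _ = _ := by ring
  have h5 : 2 ^ 22 * K ^ 4 * u ≤ Hh := by
    have : 2 ^ 23 * K ^ 4 * u = 2 ^ 22 * K ^ 4 * u + 2 ^ 22 * K ^ 4 * u := by ring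
    omega
  have h6 : 2 ^ 27 * K ^ 5 * u ^ 4 ≤ 2 * N := by
    calc 2 ^ 27 * K ^ 5 * u ^ 4 = (2 ^ 22 * K ^ 4 * u) * ((32 * K * u) * u ^ 2) := by ring
      _ ≤ Hh * ((32 * K * u) * u ^ 2) := Nat.mul_le_mul_right _ h5
      _ ≤ _ := h1
  have h7 : u ^ 4 ≤ N := by
    have h8 : 2 * u ^ 4 ≤ 2 ^ 27 * K ^ 5 * u ^ 4 := by
      apply Nat.mul_le_mul_right
      calc 2 = 2 * 1 := by norm_num
        _ ≤ 2 ^ 27 * K ^ 5 := Nat.mul_le_mul (by norm_num) (Nat.one_le_pow _ _ hK)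
    omega
  calc n ^ 4 ≤ (2 ^ 40 * K ^ 7 * u) ^ 4 := Nat.pow_le_pow_left hW2.le 4
    _ = 2 ^ 160 * K ^ 28 * u ^ 4 := by ring
    _ ≤ _ := Nat.mul_le_mul_left _ h7

/-- the mixing case -/
theorem arithG_mix (n K E h M N : ℕ) (hn : 0 < n)
    (h1 : 11 * n ^ 2 * E ≤ 64 * K * M) (h2 : 16 * K * h = E)
    (h3 : M ^ 2 ≤ n ^ 2 * (h * M + 2 * N)) (h4 : n ≤ 2 ^ 7 * K * E) :
    n ^ 4 ≤ 2 ^ 28 * K ^ 4 * N := by
  have s1 : 64 * K * (2 * n ^ 2 * h) ≤ 64 * K * M := by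
    calc 64 * K * (2 * n ^ 2 * h) = 8 * n ^ 2 * (16 * K * h) := by ring
      _ = 8 * n ^ 2 * E := by rw [h2]
      _ ≤ 11 * n ^ 2 * E := by
          apply Nat.mul_le_mul_right
          apply Nat.mul_le_mul_right
          norm_num
      _ ≤ _ := h1
  rcases Nat.eq_zero_or_pos K with hK | hK
  · subst hK
    simp at h4
    omega
  have s2 : 2 * n ^ 2 * h ≤ M := Nat.le_of_mul_le_mul_left s1 (by positivity)
  have s3 : M ^ 2 ≤ 4 * n ^ 2 * N := by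
    have e1 : 2 * (n ^ 2 * h * M) ≤ M ^ 2 := by
      calc 2 * (n ^ 2 * h * M) = (2 * n ^ 2 * h) * M := by ring
        _ ≤ M * M := Nat.mul_le_mul_right _ s2
        _ = M ^ 2 := by ring
    have e2 : n ^ 2 * (h * M + 2 * N) = n ^ 2 * h * M + 2 * n ^ 2 * N := by ring
    have e3 : 4 * n ^ 2 * N = 2 * (2 * n ^ 2 * N) := by ring
    omega
  have s4 : n ^ 2 * (121 * n ^ 2 * E ^ 2) ≤ n ^ 2 * (2 ^ 14 * K ^ 2 * N) := by
    calc n ^ 2 * (121 * n ^ 2 * E ^ 2) = (11 * n ^ 2 * E) ^ 2 := by ring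
      _ ≤ (64 * K * M) ^ 2 := Nat.pow_le_pow_left h1 2
      _ = 2 ^ 12 * K ^ 2 * M ^ 2 := by ring
      _ ≤ 2 ^ 12 * K ^ 2 * (4 * n ^ 2 * N) := Nat.mul_le_mul_left _ s3
      _ = _ := by ring
  have s5 : 121 * n ^ 2 * E ^ 2 ≤ 2 ^ 14 * K ^ 2 * N :=
    Nat.le_of_mul_le_mul_left s4 (by positivity)
  calc n ^ 4 = n ^ 2 * n ^ 2 := by ring
    _ ≤ n ^ 2 * (2 ^ 7 * K * E) ^ 2 := Nat.mul_le_mul_left _ (Nat.pow_le_pow_left h4 2)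
    _ = 2 ^ 14 * K ^ 2 * (n ^ 2 * E ^ 2) := by ring
    _ ≤ 2 ^ 14 * K ^ 2 * (121 * n ^ 2 * E ^ 2) := by
        apply Nat.mul_le_mul_left
        nlinarith [Nat.zero_le (n ^ 2 * E ^ 2)]
    _ ≤ 2 ^ 14 * K ^ 2 * (2 ^ 14 * K ^ 2 * N) := Nat.mul_le_mul_left _ s5
    _ = _ := by ring

theorem arithG_main (n K u N hm nG D m x Bd M : ℕ) (hn : 0 < n) (hK : 0 < K) (hu : 0 < u)
    (hW1 : 2 ^ 39 * K ^ 7 * u ≤ n) (hW2 : n < 2 ^ 40 * K ^ 7 * u)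
    (hfar : n ^ 2 ≤ K * hm)
    (g1 : hm ≤ nG + n * (1 + 3 * (2 ^ 33 * K ^ 6 * u) + D + 2 ^ 33 * K ^ 6 * u) +
      (2 ^ 29 * K ^ 5 * u) * Bd)
    (g2 : Bd * (2 ^ 33 * K ^ 6 * u) ≤ n * n) (g3 : D ≤ m ^ 2 * x) (g4 : x ^ 2 ≤ 4 * u ^ 2)
    (g5 : m * (2 ^ 23 * K ^ 4 * u) ≤ n)
    (g6 : (2 ^ 33 * K ^ 6 * u) * nG ≤
      2 * (2 ^ 23 * K ^ 4 * u) * (2 ^ 33 * K ^ 6 * u) * (2 ^ 11 * K ^ 2) * n + 4 * M)
    (g7 : M ^ 2 ≤ n ^ 2 * ((2 ^ 29 * K ^ 5 * u) * M + 2 * N)) :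
    n ^ 4 ≤ 2 ^ 160 * K ^ 28 * N := by
  set E := 2 ^ 33 * K ^ 6 * u with hE
  have hm' : m ≤ 2 ^ 17 * K ^ 3 := by
    have : m * (2 ^ 23 * K ^ 4 * u) < (2 ^ 17 * K ^ 3) * (2 ^ 23 * K ^ 4 * u) := by
      calc m * (2 ^ 23 * K ^ 4 * u) ≤ n := g5
        _ < 2 ^ 40 * K ^ 7 * u := hW2
        _ = _ := by ring
    exact (Nat.lt_of_mul_lt_mul_right this).le
  have hx : x ≤ 2 * u := by
    have : x ^ 2 ≤ (2 * u) ^ 2 := by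
      calc x ^ 2 ≤ 4 * u ^ 2 := g4
        _ = (2 * u) ^ 2 := by ring
    exact (Nat.pow_le_pow_iff_left (by norm_num)).mp this
  have hD : 16 * K * D ≤ n := by
    calc 16 * K * D ≤ 16 * K * (m ^ 2 * x) := Nat.mul_le_mul_left _ g3
      _ ≤ 16 * K * ((2 ^ 17 * K ^ 3) ^ 2 * (2 * u)) :=
          Nat.mul_le_mul_left _ (Nat.mul_le_mul (Nat.pow_le_pow_left hm' 2) hx)
      _ = 2 ^ 39 * K ^ 7 * u := by ring
      _ ≤ n := hW1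
  have h16 : 16 * K ≤ n := by
    calc 16 * K = 16 * K * 1 := by ring
      _ ≤ 2 ^ 39 * K ^ 7 * u := by
          have h1 : K ≤ K ^ 7 := by
            calc K = K ^ 1 := by ring
              _ ≤ K ^ 7 := Nat.pow_le_pow_right hK (by norm_num)
          exact Nat.mul_le_mul (Nat.mul_le_mul (by norm_num) h1) hu
      _ ≤ n := hW1
  have hE4 : 16 * K * (4 * E) ≤ n := by
    calc 16 * K * (4 * E) = 2 ^ 39 * K ^ 7 * u := by rw [hE]; ring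
      _ ≤ n := hW1
  have hBd : 16 * K * ((2 ^ 29 * K ^ 5 * u) * Bd) ≤ n ^ 2 := by
    calc 16 * K * ((2 ^ 29 * K ^ 5 * u) * Bd) = Bd * E := by rw [hE]; ring
      _ ≤ n * n := g2
      _ = n ^ 2 := by ring
  have t1 : 16 * n ^ 2 ≤ 16 * K * nG + n * (16 * K) + n * (16 * K * (4 * E)) + n * (16 * K * D) +
      16 * K * ((2 ^ 29 * K ^ 5 * u) * Bd) := by
    calc 16 * n ^ 2 ≤ 16 * (K * hm) := Nat.mul_le_mul_left _ hfar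
      _ ≤ 16 * (K * (nG + n * (1 + 3 * E + D + E) + (2 ^ 29 * K ^ 5 * u) * Bd)) :=
          Nat.mul_le_mul_left _ (Nat.mul_le_mul_left _ g1)
      _ = _ := by ring
  have t2 : n * (16 * K) ≤ n ^ 2 := by
    calc n * (16 * K) ≤ n * n := Nat.mul_le_mul_left _ h16
      _ = n ^ 2 := by ring
  have t3 : n * (16 * K * (4 * E)) ≤ n ^ 2 := by
    calc n * (16 * K * (4 * E)) ≤ n * n := Nat.mul_le_mul_left _ hE4
      _ = n ^ 2 := by ring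
  have t4 : n * (16 * K * D) ≤ n ^ 2 := by
    calc n * (16 * K * D) ≤ n * n := Nat.mul_le_mul_left _ hD
      _ = n ^ 2 := by ring
  have t5 : 3 * n ^ 2 ≤ 4 * K * nG := by
    have : 16 * K * nG = 4 * (4 * K * nG) := by ring
    omega
  have t6 : 3 * n ^ 2 * E ≤ n * (8 * K * (2 ^ 23 * K ^ 4 * u) * (2 ^ 11 * K ^ 2)) * E +
      16 * K * M := by
    calc 3 * n ^ 2 * E ≤ 4 * K * nG * E := Nat.mul_le_mul_right _ t5
      _ = 4 * K * (E * nG) := by ring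
      _ ≤ 4 * K * (2 * (2 ^ 23 * K ^ 4 * u) * E * (2 ^ 11 * K ^ 2) * n + 4 * M) :=
          Nat.mul_le_mul_left _ g6
      _ = _ := by ring
  have t7 : 4 * (n * (8 * K * (2 ^ 23 * K ^ 4 * u) * (2 ^ 11 * K ^ 2)) * E) ≤ n ^ 2 * E := by
    calc 4 * (n * (8 * K * (2 ^ 23 * K ^ 4 * u) * (2 ^ 11 * K ^ 2)) * E)
        = n * (2 ^ 39 * K ^ 7 * u) * E := by ring
      _ ≤ n * n * E := Nat.mul_le_mul_right _ (Nat.mul_le_mul_left _ hW1)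
      _ = _ := by ring
  have t8 : 11 * n ^ 2 * E ≤ 64 * K * M := by
    have e1 : 3 * n ^ 2 * E = 3 * (n ^ 2 * E) := by ring
    have e2 : 11 * n ^ 2 * E = 11 * (n ^ 2 * E) := by ring
    have e3 : 64 * K * M = 4 * (16 * K * M) := by ring
    omega
  have t9 := arithG_mix n K E (2 ^ 29 * K ^ 5 * u) M N hn t8 (by rw [hE]; ring) g7 (by
    calc n ≤ 2 ^ 40 * K ^ 7 * u := hW2.le
      _ = 2 ^ 7 * K * E := by rw [hE]; ring)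
  calc n ^ 4 ≤ 2 ^ 28 * K ^ 4 * N := t9
    _ ≤ 2 ^ 160 * K ^ 28 * N := by
        apply Nat.mul_le_mul_right
        exact Nat.mul_le_mul (Nat.pow_le_pow_right (by norm_num) (by norm_num))
          (Nat.pow_le_pow_right hK (by norm_num))

end Vale.Agent.Lib.P037
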