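import Mathlib
import Vale.Agent.Lib.P037.Abstract

open Finset

namespace Vale.Agent.Lib.P037

variable {n : ℕ} (A : Fin n → Fin n → Bool) (σ : Fin n → ℕ)

/-- number of ones of column `c` inside slot `s` -/
def deg (s : ℕ) (c : Fin n) : ℕ := (univ.filter fun i : Fin n => σ i = s ∧ A i c = true).card

/-- number of rows of slot `s` with a one in column `x` and a zero in column `y` -/
def wt (s : ℕ) (x y : Fin n) : ℕ :=
  (univ.filter fun i : Fin n => σ i = s ∧ A i x = true ∧ A i y = false).card

/-- number of copies of the identity pattern on the columns `x`, `y` -/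
def quad (x y : Fin n) : ℕ :=
  (univ.filter fun p : Fin n × Fin n =>
    p.1 < p.2 ∧ A p.1 x = true ∧ A p.1 y = false ∧ A p.2 x = false ∧ A p.2 y = true).card

/-- number of copies of the identity pattern -/
def N4 : ℕ :=
  (univ.filter fun q : (Fin n × Fin n) × (Fin n × Fin n) =>
    q.1.1 < q.1.2 ∧ q.2.1 < q.2.2 ∧ A q.1.1 q.2.1 = true ∧ A q.1.1 q.2.2 = false ∧
      A q.1.2 q.2.1 = false ∧ A q.1.2 q.2.2 = true).card

theorem deg_eq (s : ℕ) (x y : Fin n) :
    deg A σ s x = wt A σ s x y +
      (univ.filter fun i : Fin n => σ i = s ∧ A i x = true ∧ A i y = true).card := by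
  classical
  unfold deg wt
  rw [← card_union_of_disjoint]
  · congr 1
    ext i
    simp only [mem_filter, mem_univ, true_and, mem_union]
    cases A i y <;> simp
  · rw [disjoint_left]
    intro i hi hi'
    simp only [mem_filter, mem_univ, true_and] at hi hi'
    rw [hi.2.2] at hi'
    exact absurd hi'.2.2 (by simp)

theorem wt_add_deg (s : ℕ) (x y : Fin n) :
    wt A σ s x y + deg A σ s y = wt A σ s y x + deg A σ s x := by
  rw [deg_eq A σ s x y, deg_eq A σ s y x]
  have : (univ.filter fun i : Fin n => σ i = s ∧ A i y = true ∧ A i x = true)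
      = (univ.filter fun i : Fin n => σ i = s ∧ A i x = true ∧ A i y = true) := by
    ext i
    simp only [mem_filter, mem_univ, true_and]
    tauto
  rw [this]
  ring

theorem wt_le (h : ℕ) (hsz : ∀ s, (univ.filter fun i : Fin n => σ i = s).card ≤ h)
    (s : ℕ) (x y : Fin n) : wt A σ s x y ≤ h := by
  refine le_trans ?_ (hsz s)
  unfold wt
  apply card_le_card
  intro i hi
  simp only [mem_filter, mem_univ, true_and] at hi ⊢
  exact hi.1

theorem wt_self (s : ℕ) (x : Fin n) : wt A σ s x x = 0 := by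
  unfold wt
  rw [card_eq_zero, filter_eq_empty_iff]
  intro i _ hi
  rw [hi.2.1] at hi
  exact absurd hi.2.2 (by simp)

theorem wt_mul_wt_le_quad (hσ : ∀ i j, σ i < σ j → i < j) {s1 s2 : ℕ} (hs : s1 < s2)
    (x y : Fin n) : wt A σ s1 x y * wt A σ s2 y x ≤ quad A x y := by
  unfold wt quad
  rw [← card_product]
  apply card_le_card
  intro p hp
  simp only [mem_product, mem_filter, mem_univ, true_and] at hp ⊢
  refine ⟨hσ _ _ (by omega), hp.1.2.1, hp.1.2.2, hp.2.2.2, hp.2.2.1⟩

theorem card_lt_slot (L : ℕ) (x y : Fin n) :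
    (univ.filter fun i : Fin n => σ i < L ∧ A i x = true ∧ A i y = false).card
      = ∑ s ∈ range L, wt A σ s x y := by
  classical
  rw [card_eq_sum_card_fiberwise (f := σ) (t := range L)]
  · apply sum_congr rfl
    intro s hs
    unfold wt
    congr 1
    ext i
    simp only [mem_filter, mem_univ, true_and, mem_range] at hs ⊢
    constructor
    · rintro ⟨⟨_, h2, h3⟩, h4⟩
      exact ⟨h4, h2, h3⟩
    · rintro ⟨h4, h2, h3⟩
      exact ⟨⟨by omega, h2, h3⟩, h4⟩
  · intro i hi
    simp only [coe_filter, mem_univ, true_and, Set.mem_setOf_eq] at hi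
    simp only [coe_range, Set.mem_Iio]
    exact hi.1

theorem sum_wt_le_quad (hσ : ∀ i j, σ i < σ j → i < j) (L : ℕ) (x y : Fin n) :
    ∑ s' ∈ range L, (wt A σ s' y x * ∑ s ∈ range s', wt A σ s x y) ≤ quad A x y := by
  classical
  have h1 : (univ.filter fun p : Fin n × Fin n => σ p.1 < σ p.2 ∧ σ p.2 < L ∧
      A p.1 x = true ∧ A p.1 y = false ∧ A p.2 x = false ∧ A p.2 y = true).card
      = ∑ s' ∈ range L, (wt A σ s' y x * ∑ s ∈ range s', wt A σ s x y) := by
    rw [card_eq_sum_card_fiberwise (f := fun p : Fin n × Fin n => σ p.2) (t := range L)]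
    · apply sum_congr rfl
      intro s' _
      rw [← card_lt_slot, mul_comm]
      unfold wt
      rw [← card_product]
      congr 1
      ext p
      simp only [mem_filter, mem_univ, true_and, mem_product]
      constructor
      · rintro ⟨⟨h1, h2, h3, h4, h5, h6⟩, h7⟩
        exact ⟨⟨by omega, h3, h4⟩, h7, h6, h5⟩
      · rintro ⟨⟨h1, h3, h4⟩, h7, h6, h5⟩
        rename_i hs
        simp only [mem_range] at hs
        exact ⟨⟨by omega, by omega, h3, h4, h5, h6⟩, h7⟩
    · intro p hp
      simp only [coe_filter, mem_univ, true_and, Set.mem_setOf_eq] at hp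
      simp only [coe_range, Set.mem_Iio]
      exact hp.2.1
  rw [← h1]
  unfold quad
  apply card_le_card
  intro p hp
  simp only [mem_filter, mem_univ, true_and] at hp ⊢
  exact ⟨hσ _ _ hp.1, hp.2.2⟩

theorem sq_sum_min_le (a b : ℕ → ℕ) (h : ℕ) (hh : ∀ s, min (a s) (b s) ≤ h) (L : ℕ) :
    (∑ s ∈ range L, min (a s) (b s)) ^ 2 ≤ h * ∑ s ∈ range L, min (a s) (b s)
      + 2 * ∑ s' ∈ range L, (b s' * ∑ s ∈ range s', a s) := by
  induction L with
  | zero => simp
  | succ L ih =>
    rw [sum_range_succ, sum_range_succ]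
    have h1 : ∑ s ∈ range L, min (a s) (b s) ≤ ∑ s ∈ range L, a s :=
      sum_le_sum fun s _ => min_le_left _ _
    have h2 : min (a L) (b L) ≤ b L := min_le_right _ _
    have h3 := hh L
    set F := ∑ s ∈ range L, min (a s) (b s)
    set mL := min (a L) (b L)
    set AL := ∑ s ∈ range L, a s
    set S := ∑ s' ∈ range L, (b s' * ∑ s ∈ range s', a s)
    have h4 : F * mL ≤ b L * AL := by
      calc F * mL ≤ AL * b L := Nat.mul_le_mul h1 h2
        _ = b L * AL := Nat.mul_comm _ _
    have h5 : mL * mL ≤ h * mL := Nat.mul_le_mul_right _ h3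
    nlinarith

/-- the total amount of `two-sided` rows of a pair of columns -/
def Tm (L : ℕ) (x y : Fin n) : ℕ := ∑ s ∈ range L, min (wt A σ s x y) (wt A σ s y x)

theorem Tm_comm (L : ℕ) (x y : Fin n) : Tm A σ L x y = Tm A σ L y x := by
  unfold Tm
  apply sum_congr rfl
  intro s _
  exact min_comm _ _

theorem Tm_self (L : ℕ) (x : Fin n) : Tm A σ L x x = 0 := by
  unfold Tm
  simp [wt_self]

theorem Tm_sq_le (hσ : ∀ i j, σ i < σ j → i < j) (h : ℕ)
    (hsz : ∀ s, (univ.filter fun i : Fin n => σ i = s).card ≤ h) (L : ℕ) (x y : Fin n) :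
    (Tm A σ L x y) ^ 2 ≤ h * Tm A σ L x y + 2 * quad A x y := by
  have h1 := sq_sum_min_le (fun s => wt A σ s x y) (fun s => wt A σ s y x) h
    (fun s => le_trans (min_le_left _ _) (wt_le A σ h hsz s x y)) L
  have h2 := sum_wt_le_quad A σ hσ L x y
  unfold Tm
  omega

end Vale.Agent.Lib.P037
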