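import Mathlib
import Vale.Agent.Lib.P037.Slots

open Finset

namespace Vale.Agent.Lib.P037

variable {n : ℕ} (A : Fin n → Fin n → Bool) (σ : Fin n → ℕ)

theorem sum_quad_eq :
    ∑ p ∈ univ.filter (fun p : Fin n × Fin n => p.1 < p.2), quad A p.1 p.2 = N4 A := by
  classical
  unfold N4
  rw [card_eq_sum_card_fiberwise (f := fun q : (Fin n × Fin n) × (Fin n × Fin n) => q.2)
    (t := univ.filter (fun p : Fin n × Fin n => p.1 < p.2))]
  · apply sum_congr rfl
    intro p hp
    simp only [mem_filter, mem_univ, true_and] at hp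
    unfold quad
    apply card_bij (fun r _ => (r, p))
    · intro r hr
      simp only [mem_filter, mem_univ, true_and] at hr ⊢
      exact ⟨⟨hr.1, hp, hr.2⟩, trivial⟩
    · intro r _ r' _ hrr
      exact (Prod.mk.inj hrr).1
    · intro q hq
      simp only [mem_filter, mem_univ, true_and] at hq
      refine ⟨q.1, ?_, ?_⟩
      · simp only [mem_filter, mem_univ, true_and]
        rw [← hq.2]
        exact ⟨hq.1.1, hq.1.2.2⟩
      · rw [← hq.2]
  · intro q hq
    simp only [coe_filter, mem_univ, true_and, Set.mem_setOf_eq] at hq ⊢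
    exact hq.2.1

/-- the bad pairs of a row -/
def Zr (Δ : ℕ) (i : Fin n) : ℕ :=
  (univ.filter fun p : Fin n × Fin n => A i p.1 = true ∧ A i p.2 = false ∧
    deg A σ (σ i) p.1 < deg A σ (σ i) p.2 + Δ).card

theorem card_rows_le (Δ L : ℕ) (hL : ∀ i, σ i < L) (x y : Fin n) :
    (univ.filter fun i : Fin n => A i x = true ∧ A i y = false ∧
      deg A σ (σ i) x < deg A σ (σ i) y + Δ).card ≤ Tm A σ L x y + L * Δ := by
  classical
  rw [card_eq_sum_card_fiberwise (f := σ) (t := range L)]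
  · unfold Tm
    have : L * Δ = ∑ _s ∈ range L, Δ := by simp
    rw [this, ← sum_add_distrib]
    apply sum_le_sum
    intro s _
    by_cases hd : deg A σ s x < deg A σ s y + Δ
    · have h1 := wt_add_deg A σ s x y
      have h2 : (filter (fun i => σ i = s) (univ.filter fun i : Fin n => A i x = true ∧
          A i y = false ∧ deg A σ (σ i) x < deg A σ (σ i) y + Δ)).card ≤ wt A σ s x y := by
        unfold wt
        apply card_le_card
        intro i hi
        simp only [mem_filter, mem_univ, true_and] at hi ⊢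
        exact ⟨hi.2, hi.1.1, hi.1.2.1⟩
      rcases le_total (wt A σ s x y) (wt A σ s y x) with h3 | h3
      · rw [min_eq_left h3]; omega
      · rw [min_eq_right h3]; omega
    · have h2 : (filter (fun i => σ i = s) (univ.filter fun i : Fin n => A i x = true ∧
          A i y = false ∧ deg A σ (σ i) x < deg A σ (σ i) y + Δ)).card = 0 := by
        rw [card_eq_zero, filter_eq_empty_iff]
        intro i hi hs
        simp only [mem_filter, mem_univ, true_and] at hi
        rw [hs] at hi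
        exact hd hi.2.2
      omega
  · intro i _
    simp only [coe_range, Set.mem_Iio]
    exact hL i

theorem sum_Zr_le (Δ L : ℕ) (hL : ∀ i, σ i < L) :
    ∑ i, Zr A σ Δ i ≤ ∑ p : Fin n × Fin n, Tm A σ L p.1 p.2 + n ^ 2 * (L * Δ) := by
  classical
  have h1 : ∑ i, Zr A σ Δ i = ∑ p : Fin n × Fin n,
      (univ.filter fun i : Fin n => A i p.1 = true ∧ A i p.2 = false ∧
      deg A σ (σ i) p.1 < deg A σ (σ i) p.2 + Δ).card := by
    unfold Zr
    simp only [card_filter]
    rw [sum_comm]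
  rw [h1]
  have h2 : n ^ 2 * (L * Δ) = ∑ _p : Fin n × Fin n, L * Δ := by
    simp [sq]
  rw [h2, ← sum_add_distrib]
  apply sum_le_sum
  intro p _
  exact card_rows_le A σ Δ L hL p.1 p.2

theorem sum_Tm_sq_le (hσ : ∀ i j, σ i < σ j → i < j) (h : ℕ)
    (hsz : ∀ s, (univ.filter fun i : Fin n => σ i = s).card ≤ h) (L : ℕ) :
    ∑ p : Fin n × Fin n, (Tm A σ L p.1 p.2) ^ 2 ≤
      h * ∑ p : Fin n × Fin n, Tm A σ L p.1 p.2 + 4 * N4 A := by
  classical
  -- pointwise bound
  have hpt : ∀ p : Fin n × Fin n, (Tm A σ L p.1 p.2) ^ 2 ≤ h * Tm A σ L p.1 p.2 +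
      2 * ((if p.1 < p.2 then quad A p.1 p.2 else 0) + (if p.2 < p.1 then quad A p.2 p.1 else 0)) := by
    intro p
    rcases lt_trichotomy p.1 p.2 with hlt | heq | hgt
    · have := Tm_sq_le A σ hσ h hsz L p.1 p.2
      rw [if_pos hlt]
      omega
    · rw [heq, Tm_self]
      simp
    · have := Tm_sq_le A σ hσ h hsz L p.2 p.1
      rw [Tm_comm A σ L p.1 p.2, if_pos hgt]
      omega
  have e1 : ∑ p : Fin n × Fin n, (if p.1 < p.2 then quad A p.1 p.2 else 0) = N4 A := by
    rw [← sum_quad_eq, sum_filter]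
  have e2 : ∑ p : Fin n × Fin n, (if p.2 < p.1 then quad A p.2 p.1 else 0) = N4 A := by
    rw [← e1]
    exact Fintype.sum_equiv (Equiv.prodComm _ _) _ _ (fun p => rfl)
  calc ∑ p : Fin n × Fin n, (Tm A σ L p.1 p.2) ^ 2
      ≤ ∑ p : Fin n × Fin n, (h * Tm A σ L p.1 p.2 +
      2 * ((if p.1 < p.2 then quad A p.1 p.2 else 0) + (if p.2 < p.1 then quad A p.2 p.1 else 0))) :=
        sum_le_sum fun p _ => hpt p
    _ = h * ∑ p : Fin n × Fin n, Tm A σ L p.1 p.2 + 4 * N4 A := by
        rw [sum_add_distrib, ← mul_sum, ← mul_sum, sum_add_distrib, e1, e2]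
        ring

theorem M2_sq_le (hσ : ∀ i j, σ i < σ j → i < j) (h : ℕ)
    (hsz : ∀ s, (univ.filter fun i : Fin n => σ i = s).card ≤ h) (L : ℕ) :
    (∑ p : Fin n × Fin n, Tm A σ L p.1 p.2) ^ 2 ≤
      n ^ 2 * (h * ∑ p : Fin n × Fin n, Tm A σ L p.1 p.2 + 4 * N4 A) := by
  have h1 := sq_sum_le_card_mul_sum_sq (s := (univ : Finset (Fin n × Fin n)))
    (f := fun p => Tm A σ L p.1 p.2)
  have h2 : (univ : Finset (Fin n × Fin n)).card = n ^ 2 := by
    simp [sq]
  rw [h2] at h1
  exact le_trans h1 (Nat.mul_le_mul_left _ (sum_Tm_sq_le A σ hσ h hsz L))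

end Vale.Agent.Lib.P037
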