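import Mathlib
import Vale.Agent.Lib.P037.Sums

open Finset

namespace Vale.Agent.Lib.P037

/-- pigeonhole: one of `T` disjoint windows contains few values -/
theorem window_pigeon {n : ℕ} (d : Fin n → ℕ) (b μ T : ℕ) (hT : 0 < T) :
    ∃ j < T, T * (univ.filter fun c : Fin n =>
      b + 2 * j * μ ≤ d c ∧ d c < b + 2 * (j + 1) * μ).card ≤ n := by
  classical
  by_contra hcon
  push Not at hcon
  have hdisj : ∑ j ∈ range T, (univ.filter fun c : Fin n =>
      b + 2 * j * μ ≤ d c ∧ d c < b + 2 * (j + 1) * μ).card ≤ n := by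
    rw [← card_biUnion]
    · calc _ ≤ (univ : Finset (Fin n)).card := card_le_card (subset_univ _)
        _ = n := by simp
    · intro j _ j' _ hjj
      rw [Function.onFun, disjoint_left]
      intro c hc hc'
      simp only [mem_filter, mem_univ, true_and] at hc hc'
      rcases Nat.lt_or_gt_of_ne hjj with hlt | hlt
      · have : 2 * (j + 1) * μ ≤ 2 * j' * μ :=
          Nat.mul_le_mul_right _ (Nat.mul_le_mul_left _ hlt)
        omega
      · have : 2 * (j' + 1) * μ ≤ 2 * j * μ :=
          Nat.mul_le_mul_right _ (Nat.mul_le_mul_left _ hlt)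
        omega
  have h2 : ∑ j ∈ range T, (n + 1) ≤ ∑ j ∈ range T, T * (univ.filter fun c : Fin n =>
      b + 2 * j * μ ≤ d c ∧ d c < b + 2 * (j + 1) * μ).card := by
    apply sum_le_sum
    intro j hj
    exact hcon j (mem_range.mp hj)
  rw [← mul_sum] at h2
  simp only [sum_const, card_range, smul_eq_mul] at h2
  have h3 := Nat.mul_le_mul_left T hdisj
  have h4 : T * (n + 1) ≤ T * n := le_trans h2 h3
  have h5 : T * (n + 1) = T * n + T := by ring
  omega

variable {n : ℕ} (A : Fin n → Fin n → Bool) (σ : Fin n → ℕ)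

/-- existence of a good system of thresholds -/
theorem exists_thresholds (μ T G : ℕ) (hT : 0 < T) (hμ : 0 < μ)
    (hsz : ∀ s, (univ.filter fun i : Fin n => σ i = s).card ≤ 2 * μ * T * G) :
    ∃ θ : ℕ → ℕ → ℕ, (∀ s, θ s 0 = 0) ∧ (∀ s t, θ s (t + 1) ≤ θ s t + 4 * μ * T) ∧
      (∀ s c, deg A σ s c < θ s (G + 1)) ∧
      (∀ s t, T * (univ.filter fun c : Fin n =>
        θ s (t + 1) < deg A σ s c + μ ∧ deg A σ s c < θ s (t + 1) + μ).card ≤ n) := by
  classical
  have hex : ∀ s t, ∃ j < T, T * (univ.filter fun c : Fin n =>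
      t * (2 * μ * T) + 2 * j * μ ≤ deg A σ s c ∧
      deg A σ s c < t * (2 * μ * T) + 2 * (j + 1) * μ).card ≤ n :=
    fun s t => window_pigeon (deg A σ s) (t * (2 * μ * T)) μ T hT
  choose j hj1 hj2 using hex
  refine ⟨fun s t => match t with
    | 0 => 0
    | t + 1 => t * (2 * μ * T) + (2 * j s t + 1) * μ, fun s => rfl, ?_, ?_, ?_⟩
  · intro s t
    have hb : ∀ t, (2 * j s t + 1) * μ ≤ 2 * μ * T := by
      intro t
      have := hj1 s t
      calc (2 * j s t + 1) * μ ≤ (2 * T) * μ := Nat.mul_le_mul_right _ (by omega)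
        _ = 2 * μ * T := by ring
    have e4 : 4 * μ * T = 2 * μ * T + 2 * μ * T := by ring
    cases t with
    | zero =>
      simp only
      have := hb 0
      omega
    | succ t =>
      simp only
      have := hb (t + 1)
      have e : (t + 1) * (2 * μ * T) = t * (2 * μ * T) + 2 * μ * T := by ring
      omega
  · intro s c
    simp only
    have h1 : deg A σ s c ≤ 2 * μ * T * G := by
      refine le_trans ?_ (hsz s)
      unfold deg
      apply card_le_card
      intro i hi
      simp only [mem_filter, mem_univ, true_and] at hi ⊢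
      exact hi.1
    have h2 : 0 < (2 * j s G + 1) * μ := Nat.mul_pos (by omega) hμ
    have e : G * (2 * μ * T) = 2 * μ * T * G := by ring
    omega
  · intro s t
    simp only
    refine le_trans (Nat.mul_le_mul_left _ (card_le_card ?_)) (hj2 s t)
    intro c hc
    simp only [mem_filter, mem_univ, true_and] at hc ⊢
    have e1 : (2 * j s t + 1) * μ = 2 * j s t * μ + μ := by ring
    have e2 : 2 * (j s t + 1) * μ = 2 * j s t * μ + μ + μ := by ring
    omega

end Vale.Agent.Lib.P037
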