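import Mathlib
import Vale.Agent.Lib.P037.Thresh

open Finset

namespace Vale.Agent.Lib.P037

variable {n : ℕ} (A : Fin n → Fin n → Bool) (σ : Fin n → ℕ)

/-- no copy of the identity pattern -/
def NoQuad (B : Fin n → Fin n → Bool) : Prop :=
  ∀ r1 r2 c1 c2 : Fin n, r1 < r2 → c1 < c2 → B r1 c1 = true → B r1 c2 = false →
    B r2 c1 = false → B r2 c2 = true → False

/-- number of entries in which two matrices differ -/
def ham (A B : Fin n → Fin n → Bool) : ℕ :=
  (univ.filter fun p : Fin n × Fin n => A p.1 p.2 ≠ B p.1 p.2).card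

theorem exists_X (hσ : ∀ i j, σ i < σ j → i < j) (μ : ℕ) (hμ : 0 < μ) (Amb : Finset (Fin n))
    (s1 s2 a1 a2 : ℕ)
    (hm1 : a1 = 0 ∨ ∀ c ∉ Amb, ¬ (a1 < deg A σ s1 c + μ ∧ deg A σ s1 c < a1 + μ))
    (hm2 : a2 = 0 ∨ ∀ c ∉ Amb, ¬ (a2 < deg A σ s2 c + μ ∧ deg A σ s2 c < a2 + μ)) :
    ∃ X : Finset (Fin n), X.card ^ 2 * μ ^ 2 ≤ N4 A ∧
      (s1 < s2 → ∀ c1 c2 : Fin n, c1 ∉ Amb → c2 ∉ Amb → c1 ∉ X → c2 ∉ X →
        a1 ≤ deg A σ s1 c1 → deg A σ s2 c1 < a2 → deg A σ s1 c2 < a1 → a2 ≤ deg A σ s2 c2 →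
        ¬ c1 < c2) := by
  classical
  by_cases hs : s1 < s2
  · set P : Finset (Fin n) := univ.filter fun c => c ∉ Amb ∧ a1 ≤ deg A σ s1 c ∧
      deg A σ s2 c < a2 with hP
    set Q : Finset (Fin n) := univ.filter fun c => c ∉ Amb ∧ deg A σ s1 c < a1 ∧
      a2 ≤ deg A σ s2 c with hQ
    have hPQ : Disjoint P Q := by
      rw [disjoint_left]
      intro c hc hc'
      simp only [hP, hQ, mem_filter, mem_univ, true_and] at hc hc'
      omega
    obtain ⟨X, hX1, hX2⟩ := order_clean P Q hPQ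
    refine ⟨X, ?_, ?_⟩
    · have hpairs : ((P ×ˢ Q).filter fun p => p.1 < p.2).card * (4 * μ ^ 2) ≤ N4 A := by
        rw [← sum_quad_eq, ← smul_eq_mul, ← sum_const]
        calc ∑ _p ∈ (P ×ˢ Q).filter (fun p => p.1 < p.2), 4 * μ ^ 2
            ≤ ∑ p ∈ (P ×ˢ Q).filter (fun p => p.1 < p.2), quad A p.1 p.2 := by
              apply sum_le_sum
              intro p hp
              simp only [hP, hQ, mem_filter, mem_product, mem_univ, true_and] at hp
              obtain ⟨⟨⟨hA1, h11, h12⟩, ⟨hA2, h21, h22⟩⟩, _⟩ := hp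
              have hq := wt_mul_wt_le_quad A σ hσ hs p.1 p.2
              have e1 := wt_add_deg A σ s1 p.1 p.2
              have e2 := wt_add_deg A σ s2 p.1 p.2
              have w1 : 2 * μ ≤ wt A σ s1 p.1 p.2 := by
                rcases hm1 with h0 | hm
                · omega
                · have := hm p.1 hA1
                  have := hm p.2 hA2
                  omega
              have w2 : 2 * μ ≤ wt A σ s2 p.2 p.1 := by
                rcases hm2 with h0 | hm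
                · omega
                · have := hm p.1 hA1
                  have := hm p.2 hA2
                  omega
              calc 4 * μ ^ 2 = (2 * μ) * (2 * μ) := by ring
                _ ≤ wt A σ s1 p.1 p.2 * wt A σ s2 p.2 p.1 := Nat.mul_le_mul w1 w2
                _ ≤ _ := hq
          _ ≤ ∑ p ∈ univ.filter (fun p : Fin n × Fin n => p.1 < p.2), quad A p.1 p.2 := by
              apply sum_le_sum_of_subset
              intro p hp
              simp only [mem_filter, mem_univ, true_and] at hp ⊢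
              exact hp.2
      calc X.card ^ 2 * μ ^ 2 ≤ (4 * ((P ×ˢ Q).filter fun p => p.1 < p.2).card) * μ ^ 2 :=
            Nat.mul_le_mul_right _ hX1
        _ = ((P ×ˢ Q).filter fun p => p.1 < p.2).card * (4 * μ ^ 2) := by ring
        _ ≤ _ := hpairs
    · intro _ c1 c2 hA1 hA2 hx1 hx2 h1 h2 h3 h4
      apply hX2 c1 _ c2 _ hx1 hx2
      · simp only [hP, mem_filter, mem_univ, true_and]
        exact ⟨hA1, h1, h2⟩
      · simp only [hQ, mem_filter, mem_univ, true_and]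
        exact ⟨hA2, h3, h4⟩
  · exact ⟨∅, by simp, fun h => absurd h hs⟩

theorem core_abstract (hσ : ∀ i j, σ i < σ j → i < j) (hmono : ∀ i j, i ≤ j → σ i ≤ σ j)
    (μ T G L : ℕ) (hμ : 0 < μ) (hT : 0 < T)
    (hsz : ∀ s, (univ.filter fun i : Fin n => σ i = s).card ≤ 2 * μ * T * G)
    (hL : ∀ i, σ i < L) :
    ∃ (B : Fin n → Fin n → Bool) (D1 D2 R x M : ℕ), NoQuad B ∧ ham A B ≤ n * (D1 + D2) + R ∧
      T * D1 ≤ L * (G + 1) * n ∧ D2 ≤ (L * (G + 2)) ^ 2 * x ∧ x ^ 2 * μ ^ 2 ≤ N4 A ∧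
      R ^ 2 ≤ 4 * n * (M + n ^ 2 * (L * (4 * μ * T))) ∧
      M ^ 2 ≤ n ^ 2 * (2 * μ * T * G * M + 4 * N4 A) := by
  classical
  obtain ⟨θ, h0, hstep, hm, hwin⟩ := exists_thresholds A σ μ T G hT hμ hsz
  set win : ℕ → ℕ → Finset (Fin n) := fun s t => univ.filter fun c =>
    θ s (t + 1) < deg A σ s c + μ ∧ deg A σ s c < θ s (t + 1) + μ with hwindef
  set Amb : Finset (Fin n) := (range L ×ˢ range (G + 1)).biUnion fun q => win q.1 q.2 with hAmb
  have hAmbcard : T * Amb.card ≤ L * (G + 1) * n := by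
    calc T * Amb.card ≤ T * ∑ q ∈ range L ×ˢ range (G + 1), (win q.1 q.2).card :=
          Nat.mul_le_mul_left _ card_biUnion_le
      _ = ∑ q ∈ range L ×ˢ range (G + 1), T * (win q.1 q.2).card := mul_sum _ _ _
      _ ≤ ∑ _q ∈ range L ×ˢ range (G + 1), n := sum_le_sum fun q _ => hwin q.1 q.2
      _ = L * (G + 1) * n := by simp [card_product]
  have hmargin : ∀ s < L, ∀ t ≤ G + 1, θ s t = 0 ∨
      ∀ c ∉ Amb, ¬ (θ s t < deg A σ s c + μ ∧ deg A σ s c < θ s t + μ) := by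
    intro s hs t ht
    cases t with
    | zero => exact Or.inl (h0 s)
    | succ t =>
      right
      intro c hc hw
      apply hc
      rw [hAmb, mem_biUnion]
      refine ⟨(s, t), ?_, ?_⟩
      · rw [mem_product]
        exact ⟨mem_range.mpr hs, mem_range.mpr (by omega)⟩
      · simp only [hwindef, mem_filter, mem_univ, true_and]
        exact hw
  have hXex : ∀ s1 t1 s2 t2 : ℕ, ∃ X : Finset (Fin n), X.card ^ 2 * μ ^ 2 ≤ N4 A ∧
      (s1 < L → s2 < L → t1 ≤ G + 1 → t2 ≤ G + 1 → s1 < s2 → ∀ c1 c2 : Fin n,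
        c1 ∉ Amb → c2 ∉ Amb → c1 ∉ X → c2 ∉ X →
        θ s1 t1 ≤ deg A σ s1 c1 → deg A σ s2 c1 < θ s2 t2 → deg A σ s1 c2 < θ s1 t1 →
        θ s2 t2 ≤ deg A σ s2 c2 → ¬ c1 < c2) := by
    intro s1 t1 s2 t2
    by_cases hc : s1 < L ∧ s2 < L ∧ t1 ≤ G + 1 ∧ t2 ≤ G + 1
    · obtain ⟨X, hX1, hX2⟩ := exists_X A σ hσ μ hμ Amb s1 s2 (θ s1 t1) (θ s2 t2)
        (hmargin s1 hc.1 t1 hc.2.2.1) (hmargin s2 hc.2.1 t2 hc.2.2.2)
      exact ⟨X, hX1, fun _ _ _ _ => hX2⟩
    · exact ⟨∅, by simp, fun a b c d => absurd ⟨a, b, c, d⟩ hc⟩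
  choose X hX1 hX2 using hXex
  set Idx : Finset ((ℕ × ℕ) × (ℕ × ℕ)) :=
    (range L ×ˢ range (G + 2)) ×ˢ (range L ×ˢ range (G + 2)) with hIdx
  set DX : Finset (Fin n) := Idx.biUnion fun q => X q.1.1 q.1.2 q.2.1 q.2.2 with hDX
  set x : ℕ := Idx.sup fun q => (X q.1.1 q.1.2 q.2.1 q.2.2).card with hx
  have hxN : x ^ 2 * μ ^ 2 ≤ N4 A := by
    rw [hx]
    apply Finset.sup_induction (p := fun y : ℕ => y ^ 2 * μ ^ 2 ≤ N4 A)
    · simp
    · intro a ha b hb
      rcases le_total a b with hab | hab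
      · rw [sup_eq_right.mpr hab]; exact hb
      · rw [sup_eq_left.mpr hab]; exact ha
    · intro q _
      exact hX1 _ _ _ _
  have hDXcard : DX.card ≤ (L * (G + 2)) ^ 2 * x := by
    calc DX.card ≤ ∑ q ∈ Idx, (X q.1.1 q.1.2 q.2.1 q.2.2).card := card_biUnion_le
      _ ≤ ∑ _q ∈ Idx, x := by
          apply sum_le_sum
          intro q hq
          exact Finset.le_sup (f := fun q : (ℕ × ℕ) × (ℕ × ℕ) =>
            (X q.1.1 q.1.2 q.2.1 q.2.2).card) hq
      _ = (L * (G + 2)) ^ 2 * x := by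
          simp [hIdx, card_product, sq]
  have hτex : ∀ i : Fin n, ∃ t ≤ G + 1,
      ((univ.filter fun c => A i c ≠ decide (θ (σ i) t ≤ deg A σ (σ i) c)).card) ^ 2 ≤
      4 * Zr A σ (4 * μ * T) i := by
    intro i
    exact threshold_approx (deg A σ (σ i)) (A i) (θ (σ i)) (4 * μ * T) (G + 1) (h0 _)
      (hstep _) (hm _)
  choose τ hτ1 hτ2 using hτex
  set cost : Fin n → ℕ := fun i =>
    (univ.filter fun c => A i c ≠ decide (θ (σ i) (τ i) ≤ deg A σ (σ i) c)).card with hcost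
  refine ⟨fun i c => decide (c ∉ Amb ∪ DX ∧ θ (σ i) (τ i) ≤ deg A σ (σ i) c), Amb.card, DX.card,
    ∑ i, cost i, x, ∑ p : Fin n × Fin n, Tm A σ L p.1 p.2, ?_, ?_, hAmbcard, hDXcard, hxN, ?_,
    M2_sq_le A σ hσ _ hsz L⟩
  · -- freeness
    intro r1 r2 c1 c2 hr hc b11 b12 b21 b22
    simp only [decide_eq_true_eq, decide_eq_false_iff_not, mem_union, not_or, not_and, not_le]
      at b11 b12 b21 b22
    obtain ⟨⟨hA1, hD1⟩, g11⟩ := b11
    obtain ⟨⟨hA2, hD2⟩, g22⟩ := b22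
    have g12 := b12 ⟨hA2, hD2⟩
    have g21 := b21 ⟨hA1, hD1⟩
    rcases Nat.lt_or_ge (σ r1) (σ r2) with hs | hs
    · have hmem : ((σ r1, τ r1), (σ r2, τ r2)) ∈ Idx := by
        simp only [hIdx, mem_product, mem_range]
        have := hτ1 r1
        have := hτ1 r2
        exact ⟨⟨hL r1, by omega⟩, ⟨hL r2, by omega⟩⟩
      have hx1 : c1 ∉ X (σ r1) (τ r1) (σ r2) (τ r2) := by
        intro hcx
        apply hD1
        rw [hDX, mem_biUnion]
        exact ⟨_, hmem, hcx⟩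
      have hx2 : c2 ∉ X (σ r1) (τ r1) (σ r2) (τ r2) := by
        intro hcx
        apply hD2
        rw [hDX, mem_biUnion]
        exact ⟨_, hmem, hcx⟩
      exact hX2 (σ r1) (τ r1) (σ r2) (τ r2) (hL r1) (hL r2) (hτ1 r1) (hτ1 r2) hs c1 c2 hA1 hA2
        hx1 hx2 g11 g21 g12 g22 hc
    · have heq : σ r1 = σ r2 := le_antisymm (hmono _ _ hr.le) hs
      rw [heq] at g11 g12
      omega
  · -- distance
    have hsub : (univ.filter fun p : Fin n × Fin n => A p.1 p.2 ≠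
        decide (p.2 ∉ Amb ∪ DX ∧ θ (σ p.1) (τ p.1) ≤ deg A σ (σ p.1) p.2)) ⊆
        ((univ : Finset (Fin n)) ×ˢ (Amb ∪ DX)) ∪ (univ.filter fun p : Fin n × Fin n =>
          A p.1 p.2 ≠ decide (θ (σ p.1) (τ p.1) ≤ deg A σ (σ p.1) p.2)) := by
      intro p hp
      simp only [mem_filter, mem_univ, true_and, mem_union, mem_product] at hp ⊢
      by_cases hd : p.2 ∈ Amb ∨ p.2 ∈ DX
      · exact Or.inl hd
      · right
        simpa [hd] using hp
    have hc2 : (univ.filter fun p : Fin n × Fin n =>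
          A p.1 p.2 ≠ decide (θ (σ p.1) (τ p.1) ≤ deg A σ (σ p.1) p.2)).card = ∑ i, cost i := by
      simp only [hcost, card_filter]
      rw [Fintype.sum_prod_type]
    unfold ham
    calc _ ≤ _ := card_le_card hsub
      _ ≤ _ := card_union_le _ _
      _ ≤ n * (Amb.card + DX.card) + ∑ i, cost i := by
        rw [hc2, card_product]
        simp only [card_univ, Fintype.card_fin]
        exact Nat.add_le_add_right (Nat.mul_le_mul_left _ (card_union_le _ _)) _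
  · -- the row costs
    have h1 := sq_sum_le_card_mul_sum_sq (s := (univ : Finset (Fin n))) (f := cost)
    simp only [card_univ, Fintype.card_fin] at h1
    have h2 : ∑ i, cost i ^ 2 ≤ ∑ i, 4 * Zr A σ (4 * μ * T) i := sum_le_sum fun i _ => hτ2 i
    rw [← mul_sum] at h2
    have h3 := sum_Zr_le A σ (4 * μ * T) L hL
    calc (∑ i, cost i) ^ 2 ≤ n * ∑ i, cost i ^ 2 := h1
      _ ≤ n * (4 * ∑ i, Zr A σ (4 * μ * T) i) := Nat.mul_le_mul_left _ h2
      _ ≤ n * (4 * (∑ p : Fin n × Fin n, Tm A σ L p.1 p.2 + n ^ 2 * (L * (4 * μ * T)))) :=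
          Nat.mul_le_mul_left _ (Nat.mul_le_mul_left _ h3)
      _ = _ := by ring

end Vale.Agent.Lib.P037
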