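import Mathlib

open Finset

namespace Vale.Agent.Lib.P037

variable {n : ℕ} (σ : Fin n → ℕ) (M : Fin n → Fin n → Bool) (Rep : Finset (Fin n))

/-- two columns met in a representative row of a slot before `s` -/
def Erel (s : ℕ) (c c' : Fin n) : Prop :=
  c < c' ∧ ∃ ρ ∈ Rep, σ ρ < s ∧ M ρ c = true ∧ M ρ c' = true

/-- the generated order -/
def Ule (s : ℕ) : Fin n → Fin n → Prop := Relation.ReflTransGen (Erel σ M Rep s)

variable {σ M Rep}

theorem Ule_mono {s s' : ℕ} (h : s ≤ s') {c c' : Fin n} (hc : Ule σ M Rep s c c') :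
    Ule σ M Rep s' c c' := by
  refine Relation.ReflTransGen.mono ?_ _ _ hc
  rintro a b ⟨h1, ρ, h2, h3, h4⟩
  exact ⟨h1, ρ, h2, by omega, h4⟩

theorem Ule_le {s : ℕ} {c c' : Fin n} (hc : Ule σ M Rep s c c') : c ≤ c' := by
  induction hc with
  | refl => exact le_refl _
  | tail _ h ih => exact le_trans ih h.1.le

theorem Erel_K
    (hfree : ∀ ρ ∈ Rep, ∀ ρ' ∈ Rep, ρ < ρ' → ∀ c1 c2 : Fin n, c1 < c2 → M ρ c1 = true →
      M ρ c2 = true → M ρ' c1 = true → M ρ' c2 = true)
    {s : ℕ} {x a b : Fin n} (ha : Erel σ M Rep s x a) (hb : Erel σ M Rep s x b) (hab : a < b) :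
    Erel σ M Rep s a b := by
  obtain ⟨hxa, ρ, hρ, hs, h1, h2⟩ := ha
  obtain ⟨hxb, ρ', hρ', hs', h1', h2'⟩ := hb
  rcases lt_trichotomy ρ ρ' with hlt | heq | hgt
  · exact ⟨hab, ρ', hρ', hs', hfree ρ hρ ρ' hρ' hlt x a hxa h1 h2 h1', h2'⟩
  · subst heq
    exact ⟨hab, ρ, hρ, hs, h2, h2'⟩
  · exact ⟨hab, ρ, hρ, hs, h2, hfree ρ' hρ' ρ hρ hgt x b hxb h1' h2' h1⟩

theorem Ule_chain
    (hfree : ∀ ρ ∈ Rep, ∀ ρ' ∈ Rep, ρ < ρ' → ∀ c1 c2 : Fin n, c1 < c2 → M ρ c1 = true →
      M ρ c2 = true → M ρ' c1 = true → M ρ' c2 = true)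
    {s : ℕ} : ∀ (k : ℕ) (x a b : Fin n), n - x.val ≤ k → Ule σ M Rep s x a → Ule σ M Rep s x b →
      a ≤ b → Ule σ M Rep s a b := by
  intro k
  induction k with
  | zero =>
    intro x a b hk
    have := x.isLt
    omega
  | succ k ih =>
    intro x a b hk ha hb hab
    rcases Relation.ReflTransGen.cases_head ha with rfl | ⟨u, hxu, hua⟩
    · exact hb
    · rcases Relation.ReflTransGen.cases_head hb with rfl | ⟨v, hxv, hvb⟩
      · exfalso
        have h1 := hxu.1
        have h2 := Ule_le hua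
        exact absurd (lt_of_lt_of_le h1 (le_trans h2 hab)) (lt_irrefl _)
      · have hu : n - u.val ≤ k := by
          have h1 : x.val < u.val := hxu.1
          have := u.isLt
          omega
        have hv : n - v.val ≤ k := by
          have h1 : x.val < v.val := hxv.1
          have := v.isLt
          omega
        rcases lt_trichotomy u v with hlt | heq | hgt
        · exact ih u a b hu hua (Relation.ReflTransGen.head (Erel_K hfree hxu hxv hlt) hvb) hab
        · subst heq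
          exact ih u a b hu hua hvb hab
        · exact ih v a b hv (Relation.ReflTransGen.head (Erel_K hfree hxv hxu hgt) hua) hvb hab

theorem Ule_closed (hσ : ∀ i j, σ i < σ j → i < j)
    (hfree : ∀ ρ ∈ Rep, ∀ ρ' ∈ Rep, ρ < ρ' → ∀ c1 c2 : Fin n, c1 < c2 → M ρ c1 = true →
      M ρ c2 = true → M ρ' c1 = true → M ρ' c2 = true)
    {s : ℕ} {ρ : Fin n} (hρ : ρ ∈ Rep) (hs : s ≤ σ ρ) {c c' : Fin n} (hc : M ρ c = true)
    (h : Ule σ M Rep s c c') : M ρ c' = true := by
  induction h with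
  | refl => exact hc
  | tail _ h ih =>
    obtain ⟨h1, ρ0, hρ0, hs0, h2, h3⟩ := h
    exact hfree ρ0 hρ0 ρ hρ (hσ _ _ (by omega)) _ _ h1 h2 h3 ih

theorem Ule_of_row {s : ℕ} {ρ : Fin n} (hρ : ρ ∈ Rep) (hs : σ ρ < s) {c c' : Fin n}
    (hc : M ρ c = true) (hc' : M ρ c' = true) (hcc : c ≤ c') : Ule σ M Rep s c c' := by
  rcases eq_or_lt_of_le hcc with rfl | hlt
  · exact Relation.ReflTransGen.refl
  · exact Relation.ReflTransGen.single ⟨hlt, ρ, hρ, hs, hc, hc'⟩

variable (σ M Rep)

/-- the up-set of a column -/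
noncomputable def Uset (s : ℕ) (c : Fin n) : Finset (Fin n) :=
  @Finset.filter _ (fun c' => Ule σ M Rep s c c') (Classical.decPred _) univ

variable {σ M Rep}

theorem mem_Uset {s : ℕ} {c c' : Fin n} : c' ∈ Uset σ M Rep s c ↔ Ule σ M Rep s c c' := by
  simp [Uset]

theorem Uset_mono {s s' : ℕ} (h : s ≤ s') (c : Fin n) :
    Uset σ M Rep s c ⊆ Uset σ M Rep s' c := by
  intro x hx
  rw [mem_Uset] at hx ⊢
  exact Ule_mono h hx

variable (σ M Rep)

/-- columns whose up-set grows a lot during slot `s` -/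
noncomputable def BadC (γ s : ℕ) : Finset (Fin n) :=
  univ.filter fun c => (Uset σ M Rep s c).card + γ < (Uset σ M Rep (s + 1) c).card

theorem bad_count (γ : ℕ) (c : Fin n) (L : ℕ) :
    ((range L).filter fun s => c ∈ BadC σ M Rep γ s).card * γ ≤ (Uset σ M Rep L c).card := by
  induction L with
  | zero => simp
  | succ L ih =>
    rw [range_add_one, filter_insert]
    have hmono : (Uset σ M Rep L c).card ≤ (Uset σ M Rep (L + 1) c).card :=
      card_le_card (Uset_mono (Nat.le_succ L) c)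
    split_ifs with hb
    · rw [card_insert_of_notMem (by simp)]
      simp only [BadC, mem_filter, mem_univ, true_and] at hb
      have : (((range L).filter fun s => c ∈ BadC σ M Rep γ s).card + 1) * γ =
        ((range L).filter fun s => c ∈ BadC σ M Rep γ s).card * γ + γ := by ring
      omega
    · omega

theorem sum_bad_le (γ L : ℕ) : (∑ s ∈ range L, (BadC σ M Rep γ s).card) * γ ≤ n * n := by
  classical
  have h1 : ∑ s ∈ range L, (BadC σ M Rep γ s).card =
      ∑ c : Fin n, ((range L).filter fun s => c ∈ BadC σ M Rep γ s).card := by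
    have : ∀ s, (BadC σ M Rep γ s).card = ∑ c : Fin n, if c ∈ BadC σ M Rep γ s then 1 else 0 := by
      intro s
      simp
    simp only [this, card_filter]
    rw [sum_comm]
  rw [h1, sum_mul]
  calc ∑ c : Fin n, ((range L).filter fun s => c ∈ BadC σ M Rep γ s).card * γ
      ≤ ∑ _c : Fin n, n := by
        apply sum_le_sum
        intro c _
        refine le_trans (bad_count σ M Rep γ c L) ?_
        calc _ ≤ (univ : Finset (Fin n)).card := card_le_card (subset_univ _)
          _ = n := by simp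
    _ = n * n := by simp

/-- the template of a representative row -/
noncomputable def Ftemp (γ : ℕ) (ρ : Fin n) : Finset (Fin n) :=
  if h : (univ.filter fun c => M ρ c = true ∧ c ∉ BadC σ M Rep γ (σ ρ)).Nonempty then
    Uset σ M Rep (σ ρ + 1) ((univ.filter fun c => M ρ c = true ∧ c ∉ BadC σ M Rep γ (σ ρ)).min' h)
  else ∅

variable {σ M Rep}

theorem Ftemp_free
    (hfree : ∀ ρ ∈ Rep, ∀ ρ' ∈ Rep, ρ < ρ' → ∀ c1 c2 : Fin n, c1 < c2 → M ρ c1 = true →
      M ρ c2 = true → M ρ' c1 = true → M ρ' c2 = true)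
    (γ : ℕ) {ρ1 ρ2 : Fin n} (hs : σ ρ1 ≤ σ ρ2) {c1 c2 : Fin n} (hc : c1 < c2)
    (h11 : c1 ∈ Ftemp σ M Rep γ ρ1) (h12 : c2 ∈ Ftemp σ M Rep γ ρ1)
    (h21 : c1 ∈ Ftemp σ M Rep γ ρ2) : c2 ∈ Ftemp σ M Rep γ ρ2 := by
  unfold Ftemp at h11 h12 h21 ⊢
  split_ifs at h11 h12 with hne1
  · split_ifs at h21 ⊢ with hne2
    · rw [mem_Uset] at h11 h12 h21 ⊢
      have h3 := Ule_chain hfree _ _ _ _ (le_refl _) h11 h12 hc.le
      exact h21.trans (Ule_mono (by omega) h3)
    · simp at h21
  · simp at h11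

theorem Ftemp_cost (hσ : ∀ i j, σ i < σ j → i < j)
    (hfree : ∀ ρ ∈ Rep, ∀ ρ' ∈ Rep, ρ < ρ' → ∀ c1 c2 : Fin n, c1 < c2 → M ρ c1 = true →
      M ρ c2 = true → M ρ' c1 = true → M ρ' c2 = true)
    (γ : ℕ) {ρ : Fin n} (hρ : ρ ∈ Rep) :
    (univ.filter fun c => M ρ c ≠ decide (c ∈ Ftemp σ M Rep γ ρ)).card ≤
      (BadC σ M Rep γ (σ ρ)).card + γ := by
  classical
  unfold Ftemp
  split_ifs with hne
  · set y := (univ.filter fun c => M ρ c = true ∧ c ∉ BadC σ M Rep γ (σ ρ)).min' hne with hy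
    have hymem := min'_mem _ hne
    rw [← hy] at hymem
    simp only [mem_filter, mem_univ, true_and] at hymem
    have hsub : (univ.filter fun c => M ρ c ≠ decide (c ∈ Uset σ M Rep (σ ρ + 1) y)) ⊆
        BadC σ M Rep γ (σ ρ) ∪ (Uset σ M Rep (σ ρ + 1) y \ Uset σ M Rep (σ ρ) y) := by
      intro c hc
      simp only [mem_filter, mem_univ, true_and] at hc
      rw [mem_union, mem_sdiff]
      by_cases hcU : c ∈ Uset σ M Rep (σ ρ + 1) y
      · right
        refine ⟨hcU, ?_⟩
        intro hc0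
        rw [mem_Uset] at hc0
        have := Ule_closed hσ hfree hρ (le_refl _) hymem.1 hc0
        simp [hcU, this] at hc
      · left
        by_contra hcb
        have hM : M ρ c = true := by
          simpa [hcU] using hc
        have hyc : y ≤ c := min'_le _ _ (by
          simp only [mem_filter, mem_univ, true_and]
          exact ⟨hM, hcb⟩)
        apply hcU
        rw [mem_Uset]
        exact Ule_of_row hρ (Nat.lt_succ_self _) hymem.1 hM hyc
    have hgrow : (Uset σ M Rep (σ ρ + 1) y \ Uset σ M Rep (σ ρ) y).card ≤ γ := by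
      rw [card_sdiff_of_subset (Uset_mono (Nat.le_add_right _ 1) y)]
      have := hymem.2
      simp only [BadC, mem_filter, mem_univ, true_and, not_lt] at this
      omega
    calc _ ≤ _ := card_le_card hsub
      _ ≤ _ := card_union_le _ _
      _ ≤ _ := Nat.add_le_add_left hgrow _
  · refine le_trans (card_le_card ?_) (Nat.le_add_right _ _)
    intro c hc
    simp only [mem_filter, mem_univ, true_and, notMem_empty, decide_false, ne_eq,
      Bool.not_eq_false] at hc
    by_contra hcb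
    apply hne
    exact ⟨c, by
      simp only [mem_filter, mem_univ, true_and]
      exact ⟨hc, hcb⟩⟩

end Vale.Agent.Lib.P037
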