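import Mathlib
import Vale.Agent.Lib.P037.Slots

open Finset

namespace Vale.Agent.Lib.P037

variable {n : ℕ} (σ : Fin n → ℕ)

/-- number of rows of slot `s` satisfying `α` -/
def cnt (α : Fin n → Bool) (s : ℕ) : ℕ := (univ.filter fun i : Fin n => σ i = s ∧ α i = true).card

theorem cnt_le (h : ℕ) (hsz : ∀ s, (univ.filter fun i : Fin n => σ i = s).card ≤ h)
    (α : Fin n → Bool) (s : ℕ) : cnt σ α s ≤ h := by
  refine le_trans ?_ (hsz s)
  unfold cnt
  apply card_le_card
  intro i hi
  simp only [mem_filter, mem_univ, true_and] at hi ⊢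
  exact hi.1

theorem card_lt_slot' (α : Fin n → Bool) (L : ℕ) :
    (univ.filter fun i : Fin n => σ i < L ∧ α i = true).card = ∑ s ∈ range L, cnt σ α s := by
  classical
  rw [card_eq_sum_card_fiberwise (f := σ) (t := range L)]
  · apply sum_congr rfl
    intro s hs
    unfold cnt
    congr 1
    ext i
    simp only [mem_filter, mem_univ, true_and, mem_range] at hs ⊢
    constructor
    · rintro ⟨⟨_, h2⟩, h4⟩
      exact ⟨h4, h2⟩
    · rintro ⟨h4, h2⟩
      exact ⟨⟨by omega, h2⟩, h4⟩
  · intro i hi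
    simp only [coe_filter, mem_univ, true_and, Set.mem_setOf_eq] at hi
    simp only [coe_range, Set.mem_Iio]
    exact hi.1

theorem slot_pairs_le (hσ : ∀ i j, σ i < σ j → i < j) (α β : Fin n → Bool) (L : ℕ) :
    ∑ s' ∈ range L, (cnt σ β s' * ∑ s ∈ range s', cnt σ α s) ≤
      (univ.filter fun p : Fin n × Fin n => p.1 < p.2 ∧ α p.1 = true ∧ β p.2 = true).card := by
  classical
  have h1 : (univ.filter fun p : Fin n × Fin n => σ p.1 < σ p.2 ∧ σ p.2 < L ∧
      α p.1 = true ∧ β p.2 = true).card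
      = ∑ s' ∈ range L, (cnt σ β s' * ∑ s ∈ range s', cnt σ α s) := by
    rw [card_eq_sum_card_fiberwise (f := fun p : Fin n × Fin n => σ p.2) (t := range L)]
    · apply sum_congr rfl
      intro s' hs
      rw [← card_lt_slot', mul_comm]
      unfold cnt
      rw [← card_product]
      congr 1
      ext p
      simp only [mem_filter, mem_univ, true_and, mem_product]
      simp only [mem_range] at hs
      constructor
      · rintro ⟨⟨h1, h2, h3, h4⟩, h7⟩
        exact ⟨⟨by omega, h3⟩, h7, h4⟩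
      · rintro ⟨⟨h1, h3⟩, h7, h4⟩
        exact ⟨⟨by omega, by omega, h3, h4⟩, h7⟩
    · intro p hp
      simp only [coe_filter, mem_univ, true_and, Set.mem_setOf_eq] at hp
      simp only [coe_range, Set.mem_Iio]
      exact hp.2.1
  rw [← h1]
  apply card_le_card
  intro p hp
  simp only [mem_filter, mem_univ, true_and] at hp ⊢
  exact ⟨hσ _ _ hp.1, hp.2.2⟩

theorem sq_sum_min_cnt_le (hσ : ∀ i j, σ i < σ j → i < j) (h : ℕ)
    (hsz : ∀ s, (univ.filter fun i : Fin n => σ i = s).card ≤ h) (α β : Fin n → Bool) (L : ℕ) :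
    (∑ s ∈ range L, min (cnt σ α s) (cnt σ β s)) ^ 2 ≤
      h * ∑ s ∈ range L, min (cnt σ α s) (cnt σ β s) +
      2 * (univ.filter fun p : Fin n × Fin n => p.1 < p.2 ∧ α p.1 = true ∧ β p.2 = true).card := by
  have h1 := sq_sum_min_le (fun s => cnt σ α s) (fun s => cnt σ β s) h
    (fun s => le_trans (min_le_left _ _) (cnt_le σ h hsz α s)) L
  have h2 := slot_pairs_le σ hσ α β L
  omega

variable (A : Fin n → Fin n → Bool)

/-- rows containing both columns -/
def both (c c' : Fin n) : Fin n → Bool := fun i => A i c && A i c'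

/-- rows containing the first column only -/
def fstOnly (c c' : Fin n) : Fin n → Bool := fun i => A i c && !A i c'

/-- number of copies of the pattern `[[1,1],[1,0]]` -/
def NG : ℕ :=
  (univ.filter fun q : (Fin n × Fin n) × (Fin n × Fin n) =>
    q.1.1 < q.1.2 ∧ q.2.1 < q.2.2 ∧ A q.1.1 q.2.1 = true ∧ A q.1.1 q.2.2 = true ∧
      A q.1.2 q.2.1 = true ∧ A q.1.2 q.2.2 = false).card

/-- copies on a fixed pair of columns -/
def quadG (c c' : Fin n) : ℕ :=
  (univ.filter fun p : Fin n × Fin n => p.1 < p.2 ∧ both A c c' p.1 = true ∧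
    fstOnly A c c' p.2 = true).card

/-- copies on a fixed pair of rows -/
def invG (r r' : Fin n) : ℕ :=
  (univ.filter fun p : Fin n × Fin n => p.1 < p.2 ∧ A r p.1 = true ∧ A r p.2 = true ∧
    A r' p.1 = true ∧ A r' p.2 = false).card

theorem sum_quadG_eq :
    ∑ p ∈ univ.filter (fun p : Fin n × Fin n => p.1 < p.2), quadG A p.1 p.2 = NG A := by
  classical
  unfold NG
  rw [card_eq_sum_card_fiberwise (f := fun q : (Fin n × Fin n) × (Fin n × Fin n) => q.2)
    (t := univ.filter (fun p : Fin n × Fin n => p.1 < p.2))]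
  · apply sum_congr rfl
    intro p hp
    simp only [mem_filter, mem_univ, true_and] at hp
    unfold quadG
    apply card_bij (fun r _ => (r, p))
    · intro r hr
      simp only [mem_filter, mem_univ, true_and, both, fstOnly, Bool.and_eq_true,
        Bool.not_eq_true'] at hr ⊢
      exact ⟨⟨hr.1, hp, hr.2.1.1, hr.2.1.2, hr.2.2.1, hr.2.2.2⟩, trivial⟩
    · intro r _ r' _ hrr
      exact (Prod.mk.inj hrr).1
    · intro q hq
      simp only [mem_filter, mem_univ, true_and] at hq
      refine ⟨q.1, ?_, ?_⟩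
      · simp only [mem_filter, mem_univ, true_and, both, fstOnly, Bool.and_eq_true,
          Bool.not_eq_true']
        rw [← hq.2]
        exact ⟨hq.1.1, ⟨hq.1.2.2.1, hq.1.2.2.2.1⟩, hq.1.2.2.2.2.1, hq.1.2.2.2.2.2⟩
      · rw [← hq.2]
  · intro q hq
    simp only [coe_filter, mem_univ, true_and, Set.mem_setOf_eq] at hq ⊢
    exact hq.2.1

theorem sum_invG_eq :
    ∑ p ∈ univ.filter (fun p : Fin n × Fin n => p.1 < p.2), invG A p.1 p.2 = NG A := by
  classical
  unfold NG
  rw [card_eq_sum_card_fiberwise (f := fun q : (Fin n × Fin n) × (Fin n × Fin n) => q.1)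
    (t := univ.filter (fun p : Fin n × Fin n => p.1 < p.2))]
  · apply sum_congr rfl
    intro p hp
    simp only [mem_filter, mem_univ, true_and] at hp
    unfold invG
    apply card_bij (fun r _ => (p, r))
    · intro r hr
      simp only [mem_filter, mem_univ, true_and] at hr ⊢
      exact ⟨⟨hp, hr⟩, trivial⟩
    · intro r _ r' _ hrr
      exact (Prod.mk.inj hrr).2
    · intro q hq
      simp only [mem_filter, mem_univ, true_and] at hq
      refine ⟨q.2, ?_, ?_⟩
      · simp only [mem_filter, mem_univ, true_and]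
        rw [← hq.2]
        exact hq.1.2
      · rw [← hq.2]
  · intro q hq
    simp only [coe_filter, mem_univ, true_and, Set.mem_setOf_eq] at hq ⊢
    exact hq.1

/-- the amount of mixed rows of a pair of columns -/
def TmG (L : ℕ) (c c' : Fin n) : ℕ :=
  ∑ s ∈ range L, min (cnt σ (both A c c') s) (cnt σ (fstOnly A c c') s)

theorem TmG_sq_le (hσ : ∀ i j, σ i < σ j → i < j) (h : ℕ)
    (hsz : ∀ s, (univ.filter fun i : Fin n => σ i = s).card ≤ h) (L : ℕ) (c c' : Fin n) :
    (TmG σ A L c c') ^ 2 ≤ h * TmG σ A L c c' + 2 * quadG A c c' :=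
  sq_sum_min_cnt_le σ hσ h hsz _ _ L

/-- total mixing -/
def M2G (L : ℕ) : ℕ := ∑ p ∈ univ.filter (fun p : Fin n × Fin n => p.1 < p.2), TmG σ A L p.1 p.2

theorem M2G_sq_le (hσ : ∀ i j, σ i < σ j → i < j) (h : ℕ)
    (hsz : ∀ s, (univ.filter fun i : Fin n => σ i = s).card ≤ h) (L : ℕ) :
    (M2G σ A L) ^ 2 ≤ n ^ 2 * (h * M2G σ A L + 2 * NG A) := by
  classical
  have h1 := sq_sum_le_card_mul_sum_sq (s := univ.filter (fun p : Fin n × Fin n => p.1 < p.2))
    (f := fun p => TmG σ A L p.1 p.2)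
  have h2 : (univ.filter (fun p : Fin n × Fin n => p.1 < p.2)).card ≤ n ^ 2 := by
    calc _ ≤ (univ : Finset (Fin n × Fin n)).card := card_le_card (subset_univ _)
      _ = n ^ 2 := by simp [sq]
  have h3 : ∑ p ∈ univ.filter (fun p : Fin n × Fin n => p.1 < p.2), (TmG σ A L p.1 p.2) ^ 2 ≤
      h * M2G σ A L + 2 * NG A := by
    rw [← sum_quadG_eq, M2G, mul_sum, mul_sum, ← sum_add_distrib]
    exact sum_le_sum fun p _ => TmG_sq_le σ A hσ h hsz L p.1 p.2
  calc (M2G σ A L) ^ 2 ≤ _ := h1
    _ ≤ n ^ 2 * (h * M2G σ A L + 2 * NG A) := Nat.mul_le_mul h2 h3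

end Vale.Agent.Lib.P037
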