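import Mathlib
import Vale.Agent.Lib.P037.GSlots

open Finset

namespace Vale.Agent.Lib.P037

variable {n : ℕ} (σ : Fin n → ℕ) (A : Fin n → Fin n → Bool)

/-- rows of slot `s` containing column `c` -/
def Tcol (s : ℕ) (c : Fin n) : Finset (Fin n) := univ.filter fun i => σ i = s ∧ A i c = true

/-- number of differences of two rows to the right of `c` -/
def Dif (r ρ c : Fin n) : ℕ := (univ.filter fun c' : Fin n => c < c' ∧ A r c' ≠ A ρ c').card

/-- mixing of a column in a slot -/
def mix (s : ℕ) (c : Fin n) : ℕ :=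
  ∑ c' ∈ univ.filter (fun c' : Fin n => c < c'),
    min (cnt σ (both A c c') s) (cnt σ (fstOnly A c c') s)

/-- candidates: rows of the same slot through `c` that agree with `r` to the right of `c` -/
def Cand (E : ℕ) (r c : Fin n) : Finset (Fin n) :=
  univ.filter fun ρ => σ ρ = σ r ∧ A ρ c = true ∧ Dif A r ρ c ≤ E

theorem Dif_mono (r ρ : Fin n) {c c' : Fin n} (h : c ≤ c') : Dif A r ρ c' ≤ Dif A r ρ c := by
  unfold Dif
  apply card_le_card
  intro x hx
  simp only [mem_filter, mem_univ, true_and] at hx ⊢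
  exact ⟨lt_of_le_of_lt h hx.1, hx.2⟩

theorem Dif_comm (r ρ c : Fin n) : Dif A r ρ c = Dif A ρ r c := by
  unfold Dif
  congr 1
  ext x
  simp only [mem_filter, mem_univ, true_and]
  constructor
  · rintro ⟨h1, h2⟩
    exact ⟨h1, fun h => h2 h.symm⟩
  · rintro ⟨h1, h2⟩
    exact ⟨h1, fun h => h2 h.symm⟩

theorem Dif_triangle (r1 r2 r3 c : Fin n) : Dif A r1 r3 c ≤ Dif A r1 r2 c + Dif A r2 r3 c := by
  classical
  unfold Dif
  refine le_trans (card_le_card ?_) (card_union_le _ _)
  intro x hx
  simp only [mem_filter, mem_univ, true_and, mem_union] at hx ⊢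
  by_cases h : A r1 x = A r2 x
  · right
    exact ⟨hx.1, fun h' => hx.2 (h.trans h')⟩
  · left
    exact ⟨hx.1, h⟩

theorem pairs_ne_le (s : ℕ) (c c' : Fin n) :
    ((Tcol σ A s c ×ˢ Tcol σ A s c).filter fun p => A p.1 c' ≠ A p.2 c').card ≤
      2 * (Tcol σ A s c).card * min (cnt σ (both A c c') s) (cnt σ (fstOnly A c c') s) := by
  classical
  set Ta := univ.filter fun i : Fin n => σ i = s ∧ both A c c' i = true with hTa
  set Tb := univ.filter fun i : Fin n => σ i = s ∧ fstOnly A c c' i = true with hTb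
  have hsub : ((Tcol σ A s c ×ˢ Tcol σ A s c).filter fun p => A p.1 c' ≠ A p.2 c') ⊆
      (Ta ×ˢ Tb) ∪ (Tb ×ˢ Ta) := by
    intro p hp
    simp only [Tcol, hTa, hTb, mem_filter, mem_product, mem_univ, true_and, mem_union, both,
      fstOnly, Bool.and_eq_true, Bool.not_eq_true'] at hp ⊢
    obtain ⟨⟨⟨h1, h2⟩, h3, h4⟩, h5⟩ := hp
    cases h6 : A p.1 c' <;> cases h7 : A p.2 c' <;> simp_all
  have hd : (Tcol σ A s c).card = Ta.card + Tb.card := by
    rw [← card_union_of_disjoint]
    · congr 1
      ext i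
      simp only [Tcol, hTa, hTb, mem_filter, mem_univ, true_and, mem_union, both, fstOnly,
        Bool.and_eq_true, Bool.not_eq_true']
      cases A i c' <;> simp
    · rw [disjoint_left]
      intro i hi hi'
      simp only [hTa, hTb, mem_filter, mem_univ, true_and, both, fstOnly, Bool.and_eq_true,
        Bool.not_eq_true'] at hi hi'
      rw [hi.2.2] at hi'
      exact absurd hi'.2.2 (by simp)
  have ha : cnt σ (both A c c') s = Ta.card := rfl
  have hb : cnt σ (fstOnly A c c') s = Tb.card := rfl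
  rw [ha, hb, hd]
  calc _ ≤ ((Ta ×ˢ Tb) ∪ (Tb ×ˢ Ta)).card := card_le_card hsub
    _ ≤ (Ta ×ˢ Tb).card + (Tb ×ˢ Ta).card := card_union_le _ _
    _ = 2 * (Ta.card * Tb.card) := by rw [card_product, card_product]; ring
    _ ≤ 2 * (Ta.card + Tb.card) * min Ta.card Tb.card := by
        rcases le_total Ta.card Tb.card with h | h
        · rw [min_eq_left h]; nlinarith
        · rw [min_eq_right h]; nlinarith

theorem sum_Dif_le (s : ℕ) (c : Fin n) :
    ∑ r ∈ Tcol σ A s c, ∑ ρ ∈ Tcol σ A s c, Dif A r ρ c ≤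
      2 * (Tcol σ A s c).card * mix σ A s c := by
  classical
  have h1 : ∑ r ∈ Tcol σ A s c, ∑ ρ ∈ Tcol σ A s c, Dif A r ρ c =
      ∑ c' ∈ univ.filter (fun c' : Fin n => c < c'),
        ((Tcol σ A s c ×ˢ Tcol σ A s c).filter fun p => A p.1 c' ≠ A p.2 c').card := by
    rw [← sum_product']
    unfold Dif
    simp only [card_filter]
    rw [sum_comm]
    rw [sum_filter]
    apply sum_congr rfl
    intro c' _
    by_cases hc : c < c'
    · simp [hc]
    · simp [hc]
  rw [h1, mix, mul_sum]
  exact sum_le_sum fun c' _ => pairs_ne_le σ A s c c'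

theorem nongood_slot_le (E K0 : ℕ) (s : ℕ) (c : Fin n) :
    E * ((Tcol σ A s c).filter fun r => (Cand σ A E r c).card < K0).card ≤
      2 * K0 * E + 4 * mix σ A s c := by
  classical
  set T := Tcol σ A s c with hT
  set NGd := T.filter fun r => (Cand σ A E r c).card < K0 with hNG
  rcases Nat.lt_or_ge T.card (2 * K0) with hd | hd
  · have : NGd.card ≤ T.card := card_le_card (filter_subset _ _)
    calc E * NGd.card ≤ E * (2 * K0) := Nat.mul_le_mul_left _ (by omega)
      _ = 2 * K0 * E := by ring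
      _ ≤ _ := Nat.le_add_right _ _
  · -- each non good row has a large sum
    have hrow : ∀ r ∈ NGd, E * T.card ≤ 2 * ∑ ρ ∈ T, Dif A r ρ c := by
      intro r hr
      simp only [hNG, mem_filter] at hr
      obtain ⟨hrT, hrC⟩ := hr
      have hrs : σ r = s := by
        simp only [hT, Tcol, mem_filter, mem_univ, true_and] at hrT
        exact hrT.1
      have hsplit : T.card = (T.filter fun ρ => Dif A r ρ c ≤ E).card +
          (T.filter fun ρ => ¬ Dif A r ρ c ≤ E).card :=
        (card_filter_add_card_filter_not _).symm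
      have hC : (T.filter fun ρ => Dif A r ρ c ≤ E) = Cand σ A E r c := by
        ext ρ
        simp only [hT, Tcol, Cand, mem_filter, mem_univ, true_and, hrs]
        tauto
      rw [hC] at hsplit
      have hbig : E * (T.filter fun ρ => ¬ Dif A r ρ c ≤ E).card ≤ ∑ ρ ∈ T, Dif A r ρ c := by
        calc E * (T.filter fun ρ => ¬ Dif A r ρ c ≤ E).card
            = ∑ _ρ ∈ T.filter (fun ρ => ¬ Dif A r ρ c ≤ E), E := by simp [mul_comm]
          _ ≤ ∑ ρ ∈ T.filter (fun ρ => ¬ Dif A r ρ c ≤ E), Dif A r ρ c := by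
              apply sum_le_sum
              intro ρ hρ
              simp only [mem_filter] at hρ
              omega
          _ ≤ ∑ ρ ∈ T, Dif A r ρ c := sum_le_sum_of_subset (filter_subset _ _)
      have h2 : T.card ≤ 2 * (T.filter fun ρ => ¬ Dif A r ρ c ≤ E).card := by omega
      calc E * T.card ≤ E * (2 * (T.filter fun ρ => ¬ Dif A r ρ c ≤ E).card) :=
            Nat.mul_le_mul_left _ h2
        _ = 2 * (E * (T.filter fun ρ => ¬ Dif A r ρ c ≤ E).card) := by ring
        _ ≤ _ := Nat.mul_le_mul_left _ hbig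
    have hsum : NGd.card * (E * T.card) ≤ 2 * ∑ r ∈ T, ∑ ρ ∈ T, Dif A r ρ c := by
      calc NGd.card * (E * T.card) = ∑ _r ∈ NGd, E * T.card := by simp
        _ ≤ ∑ r ∈ NGd, 2 * ∑ ρ ∈ T, Dif A r ρ c := sum_le_sum hrow
        _ = 2 * ∑ r ∈ NGd, ∑ ρ ∈ T, Dif A r ρ c := by rw [mul_sum]
        _ ≤ 2 * ∑ r ∈ T, ∑ ρ ∈ T, Dif A r ρ c :=
            Nat.mul_le_mul_left _ (sum_le_sum_of_subset (filter_subset _ _))
    have h3 := sum_Dif_le σ A s c
    rw [← hT] at h3
    rcases Nat.eq_zero_or_pos T.card with h0 | h0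
    · have : NGd.card = 0 := by
        have : NGd.card ≤ T.card := card_le_card (filter_subset _ _)
        omega
      rw [this]
      simp
    · have h4 : T.card * (E * NGd.card) ≤ T.card * (4 * mix σ A s c) := by
        calc T.card * (E * NGd.card) = NGd.card * (E * T.card) := by ring
          _ ≤ 2 * ∑ r ∈ T, ∑ ρ ∈ T, Dif A r ρ c := hsum
          _ ≤ 2 * (2 * T.card * mix σ A s c) := Nat.mul_le_mul_left _ h3
          _ = _ := by ring
      have := Nat.le_of_mul_le_mul_left h4 h0
      omega

theorem sum_mix_eq (L : ℕ) : ∑ s ∈ range L, ∑ c : Fin n, mix σ A s c = M2G σ A L := by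
  classical
  unfold mix M2G TmG
  rw [sum_filter, Fintype.sum_prod_type, sum_comm]
  apply sum_congr rfl
  intro c _
  simp only [sum_filter]
  rw [sum_comm]
  apply sum_congr rfl
  intro c' _
  by_cases hc : c < c'
  · simp [hc]
  · simp [hc]

/-- the ones of the matrix without enough candidates -/
def nonGood (E K0 : ℕ) : Finset (Fin n × Fin n) :=
  univ.filter fun p => A p.1 p.2 = true ∧ (Cand σ A E p.1 p.2).card < K0

theorem nonGood_card_le (E K0 L : ℕ) (hL : ∀ i, σ i < L) :
    E * (nonGood σ A E K0).card ≤ 2 * K0 * E * L * n + 4 * M2G σ A L := by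
  classical
  have h1 : (nonGood σ A E K0).card = ∑ s ∈ range L, ∑ c : Fin n,
      ((Tcol σ A s c).filter fun r => (Cand σ A E r c).card < K0).card := by
    unfold nonGood
    rw [card_eq_sum_card_fiberwise (f := fun p : Fin n × Fin n => σ p.1) (t := range L)]
    · apply sum_congr rfl
      intro s _
      rw [card_eq_sum_card_fiberwise (f := fun p : Fin n × Fin n => p.2) (t := univ)]
      · apply sum_congr rfl
        intro c _
        apply card_bij (fun p _ => p.1)
        · intro p hp
          simp only [mem_filter, mem_univ, true_and, Tcol] at hp ⊢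
          obtain ⟨⟨⟨h1, h2⟩, h3⟩, h4⟩ := hp
          rw [h4] at h1 h2
          exact ⟨⟨h3, h1⟩, h2⟩
        · intro p hp p' hp' hpp
          simp only [mem_filter, mem_univ, true_and] at hp hp'
          exact Prod.ext hpp (hp.2.trans hp'.2.symm)
        · intro r hr
          simp only [mem_filter, mem_univ, true_and, Tcol] at hr
          refine ⟨(r, c), ?_, rfl⟩
          simp only [mem_filter, mem_univ, true_and]
          exact ⟨⟨⟨hr.1.2, hr.2⟩, hr.1.1⟩, trivial⟩
      · intro p _
        simp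
    · intro p _
      simp only [coe_range, Set.mem_Iio]
      exact hL _
  rw [h1, mul_sum]
  calc ∑ s ∈ range L, E * ∑ c : Fin n,
        ((Tcol σ A s c).filter fun r => (Cand σ A E r c).card < K0).card
      ≤ ∑ s ∈ range L, ∑ c : Fin n, (2 * K0 * E + 4 * mix σ A s c) := by
        apply sum_le_sum
        intro s _
        rw [mul_sum]
        exact sum_le_sum fun c _ => nongood_slot_le σ A E K0 s c
    _ = 2 * K0 * E * L * n + 4 * M2G σ A L := by
        rw [← sum_mix_eq]
        simp only [sum_add_distrib, sum_const, card_univ, Fintype.card_fin, card_range,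
          smul_eq_mul, mul_sum]
        ring

end Vale.Agent.Lib.P037
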