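import Mathlib

open Finset

namespace Vale.Agent.Lib.P037

/-- a Vitali type selection -/
theorem vitali_select {α β : Type*} [DecidableEq α] [DecidableEq β] (x : α → ℕ)
    (C : α → Finset β) (V : Finset α) (hne : ∀ b ∈ V, (C b).Nonempty) :
    ∃ P ⊆ V, (∀ a ∈ P, ∀ b ∈ P, a ≠ b → Disjoint (C a) (C b)) ∧
      ∀ b ∈ V, ∃ a ∈ P, x a ≤ x b ∧ ¬ Disjoint (C a) (C b) := by
  induction V using Finset.strongInduction with
  | H V ih =>
    rcases V.eq_empty_or_nonempty with h0 | h0
    · subst h0
      exact ⟨∅, subset_refl _, by simp, by simp⟩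
    · obtain ⟨a0, ha0, hmin⟩ := exists_min_image V x h0
      set V' := V.filter fun b => Disjoint (C a0) (C b) with hV'
      have hnd : ¬ Disjoint (C a0) (C a0) := by
        rw [disjoint_self]
        exact (hne a0 ha0).ne_empty
      have hss : V' ⊂ V := by
        rw [ssubset_iff_of_subset (filter_subset _ _)]
        refine ⟨a0, ha0, ?_⟩
        simp only [hV', mem_filter, not_and]
        exact fun _ => hnd
      obtain ⟨P', hP'V, hP'd, hP'c⟩ := ih V' hss (fun b hb => hne b (filter_subset _ _ hb))
      refine ⟨insert a0 P', ?_, ?_, ?_⟩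
      · intro a ha
        rcases mem_insert.mp ha with rfl | ha
        · exact ha0
        · exact filter_subset _ _ (hP'V ha)
      · intro a ha b hb hab
        rcases mem_insert.mp ha with ha1 | ha1 <;> rcases mem_insert.mp hb with hb1 | hb1
        · exact absurd (ha1.trans hb1.symm) hab
        · rw [ha1]
          exact (mem_filter.mp (hP'V hb1)).2
        · rw [hb1]
          exact (mem_filter.mp (hP'V ha1)).2.symm
        · exact hP'd a ha1 b hb1 hab
      · intro b hb
        by_cases hd : Disjoint (C a0) (C b)
        · obtain ⟨a, ha, h1, h2⟩ := hP'c b (mem_filter.mpr ⟨hb, hd⟩)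
          exact ⟨a, mem_insert_of_mem ha, h1, h2⟩
        · exact ⟨a0, mem_insert_self _ _, hmin b hb, hd⟩

/-- greedy choice of representatives avoiding a sparse symmetric relation -/
theorem greedy_choice {ι α : Type*} [DecidableEq ι] [DecidableEq α] [Fintype α] (f0 : ι → α)
    (C : ι → Finset α) (Bad : α → α → Prop) [DecidableRel Bad]
    (hsymm : ∀ a b, Bad a b → Bad b a) (β H : ℕ)
    (hHigh : (univ.filter fun a => β < (univ.filter fun b => Bad a b).card).card ≤ H)
    (I : Finset ι) (hC : ∀ i ∈ I, H + I.card * β < (C i).card) :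
    ∃ f : ι → α, (∀ i ∈ I, f i ∈ C i) ∧ ∀ i ∈ I, ∀ j ∈ I, i ≠ j → ¬ Bad (f i) (f j) := by
  have key : ∀ J : Finset ι, J ⊆ I → ∃ f : ι → α,
      (∀ i ∈ J, f i ∈ C i ∧ (univ.filter fun b => Bad (f i) b).card ≤ β) ∧
      ∀ i ∈ J, ∀ j ∈ J, i ≠ j → ¬ Bad (f i) (f j) := by
    intro J
    induction J using Finset.induction_on with
    | empty => exact fun _ => ⟨f0, by simp, by simp⟩
    | insert i J hi ih =>
      intro hJ
      obtain ⟨f, hf1, hf2⟩ := ih (fun j hj => hJ (mem_insert_of_mem hj))
      set Ex : Finset α := (univ.filter fun a => β < (univ.filter fun b => Bad a b).card) ∪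
        J.biUnion (fun j => univ.filter fun b => Bad (f j) b) with hEx
      have hExc : Ex.card ≤ H + I.card * β := by
        calc Ex.card ≤ _ + (J.biUnion (fun j => univ.filter fun b => Bad (f j) b)).card :=
              card_union_le _ _
          _ ≤ H + ∑ j ∈ J, (univ.filter fun b => Bad (f j) b).card :=
              Nat.add_le_add hHigh card_biUnion_le
          _ ≤ H + ∑ _j ∈ J, β := Nat.add_le_add_left (sum_le_sum fun j hj => (hf1 j hj).2) _
          _ = H + J.card * β := by simp
          _ ≤ H + I.card * β := by
              apply Nat.add_le_add_left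
              apply Nat.mul_le_mul_right
              exact card_le_card (fun j hj => hJ (mem_insert_of_mem hj))
      have hlt : Ex.card < (C i).card := lt_of_le_of_lt hExc (hC i (hJ (mem_insert_self _ _)))
      obtain ⟨a, haC, haE⟩ := exists_mem_notMem_of_card_lt_card hlt
      simp only [hEx, mem_union, mem_filter, mem_univ, true_and, mem_biUnion, not_or, not_lt,
        not_exists, not_and] at haE
      refine ⟨Function.update f i a, ?_, ?_⟩
      · intro j hj
        rcases mem_insert.mp hj with rfl | hj
        · simp only [Function.update_self]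
          exact ⟨haC, haE.1⟩
        · have hne : j ≠ i := fun h => hi (h ▸ hj)
          simp only [Function.update_of_ne hne]
          exact hf1 j hj
      · intro j hj k hk hjk
        rcases mem_insert.mp hj with hj1 | hj1 <;> rcases mem_insert.mp hk with hk1 | hk1
        · exact absurd (hj1.trans hk1.symm) hjk
        · have hne : k ≠ i := fun h => hi (h ▸ hk1)
          rw [hj1]
          simp only [Function.update_self, Function.update_of_ne hne]
          exact fun hb => haE.2 k hk1 (hsymm _ _ hb)
        · have hne : j ≠ i := fun h => hi (h ▸ hj1)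
          rw [hk1]
          simp only [Function.update_self, Function.update_of_ne hne]
          exact haE.2 j hj1
        · have hne1 : j ≠ i := fun h => hi (h ▸ hj1)
          have hne2 : k ≠ i := fun h => hi (h ▸ hk1)
          simp only [Function.update_of_ne hne1, Function.update_of_ne hne2]
          exact hf2 j hj1 k hk1 hjk
  obtain ⟨f, hf1, hf2⟩ := key I (subset_refl _)
  exact ⟨f, fun i hi => (hf1 i hi).1, hf2⟩

end Vale.Agent.Lib.P037
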