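import Mathlib
import Vale.Agent.Lib.P037.Abstract
import Vale.Agent.Lib.P037.GGood
import Vale.Agent.Lib.P037.GSelect
import Vale.Agent.Lib.P037.GExact

open Finset

namespace Vale.Agent.Lib.P037

variable {n : ℕ} (σ : Fin n → ℕ) (A : Fin n → Fin n → Bool)

/-- no copy of the pattern `[[1,1],[1,0]]` -/
def NoG (B : Fin n → Fin n → Bool) : Prop :=
  ∀ r1 r2 c1 c2 : Fin n, r1 < r2 → c1 < c2 → B r1 c1 = true → B r1 c2 = true →
    B r2 c1 = true → B r2 c2 = false → False

/-- pairs of rows carrying many copies -/
def BadPair (lam : ℕ) (a b : Fin n) : Prop :=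
  (a < b ∧ lam < invG A a b) ∨ (b < a ∧ lam < invG A b a)

instance (lam : ℕ) : DecidableRel (BadPair A lam) := fun a b => by
  unfold BadPair
  infer_instance

theorem BadPair_symm (lam : ℕ) (a b : Fin n) (h : BadPair A lam a b) : BadPair A lam b a := by
  unfold BadPair at h ⊢
  tauto

theorem badPairs_card (lam : ℕ) :
    (univ.filter fun p : Fin n × Fin n => BadPair A lam p.1 p.2).card * lam ≤ 2 * NG A := by
  classical
  have h1 : (univ.filter fun p : Fin n × Fin n => p.1 < p.2 ∧ lam < invG A p.1 p.2).card * lam
      ≤ NG A := by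
    rw [← sum_invG_eq]
    calc (univ.filter fun p : Fin n × Fin n => p.1 < p.2 ∧ lam < invG A p.1 p.2).card * lam
        = ∑ _p ∈ univ.filter (fun p : Fin n × Fin n => p.1 < p.2 ∧ lam < invG A p.1 p.2), lam := by
          simp
      _ ≤ ∑ p ∈ univ.filter (fun p : Fin n × Fin n => p.1 < p.2 ∧ lam < invG A p.1 p.2),
            invG A p.1 p.2 := by
          apply sum_le_sum
          intro p hp
          simp only [mem_filter, mem_univ, true_and] at hp
          exact hp.2.le
      _ ≤ _ := by
          apply sum_le_sum_of_subset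
          intro p hp
          simp only [mem_filter, mem_univ, true_and] at hp ⊢
          exact hp.1
  have h2 : (univ.filter fun p : Fin n × Fin n => p.2 < p.1 ∧ lam < invG A p.2 p.1).card =
      (univ.filter fun p : Fin n × Fin n => p.1 < p.2 ∧ lam < invG A p.1 p.2).card := by
    apply card_bij (fun p _ => (p.2, p.1))
    · intro p hp
      simp only [mem_filter, mem_univ, true_and] at hp ⊢
      exact hp
    · intro p _ p' _ hpp
      simp only [Prod.mk.injEq] at hpp
      exact Prod.ext hpp.2 hpp.1
    · intro p hp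
      simp only [mem_filter, mem_univ, true_and] at hp
      exact ⟨(p.2, p.1), by simpa using hp, rfl⟩
  have h3 : (univ.filter fun p : Fin n × Fin n => BadPair A lam p.1 p.2).card ≤
      (univ.filter fun p : Fin n × Fin n => p.1 < p.2 ∧ lam < invG A p.1 p.2).card +
      (univ.filter fun p : Fin n × Fin n => p.2 < p.1 ∧ lam < invG A p.2 p.1).card := by
    refine le_trans (card_le_card ?_) (card_union_le _ _)
    intro p hp
    rw [mem_filter] at hp
    have hp2 := hp.2
    unfold BadPair at hp2
    simp only [mem_filter, mem_univ, true_and, mem_union]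
    exact hp2
  rw [h2] at h3
  calc _ ≤ (2 * (univ.filter fun p : Fin n × Fin n => p.1 < p.2 ∧ lam < invG A p.1 p.2).card) * lam :=
        Nat.mul_le_mul_right _ (by omega)
    _ = 2 * ((univ.filter fun p : Fin n × Fin n => p.1 < p.2 ∧ lam < invG A p.1 p.2).card * lam) := by
        ring
    _ ≤ _ := Nat.mul_le_mul_left _ h1

theorem high_card (lam β : ℕ) :
    (univ.filter fun a : Fin n => β < (univ.filter fun b => BadPair A lam a b).card).card *
      (β * lam) ≤ 2 * NG A := by
  classical
  have h1 : (univ.filter fun p : Fin n × Fin n => BadPair A lam p.1 p.2).card =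
      ∑ a : Fin n, (univ.filter fun b => BadPair A lam a b).card := by
    simp only [card_filter]
    rw [Fintype.sum_prod_type]
  have h2 : (univ.filter fun a : Fin n => β < (univ.filter fun b => BadPair A lam a b).card).card * β
      ≤ ∑ a : Fin n, (univ.filter fun b => BadPair A lam a b).card := by
    calc _ = ∑ _a ∈ univ.filter
          (fun a : Fin n => β < (univ.filter fun b => BadPair A lam a b).card), β := by simp
      _ ≤ ∑ a ∈ univ.filter
          (fun a : Fin n => β < (univ.filter fun b => BadPair A lam a b).card),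
            (univ.filter fun b => BadPair A lam a b).card := by
          apply sum_le_sum
          intro a ha
          simp only [mem_filter, mem_univ, true_and] at ha
          exact ha.le
      _ ≤ _ := sum_le_sum_of_subset (subset_univ _)
  rw [← h1] at h2
  calc _ = ((univ.filter fun a : Fin n =>
        β < (univ.filter fun b => BadPair A lam a b).card).card * β) * lam := by ring
    _ ≤ (univ.filter fun p : Fin n × Fin n => BadPair A lam p.1 p.2).card * lam :=
        Nat.mul_le_mul_right _ h2
    _ ≤ _ := badPairs_card A lam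

/-- cleaning the columns for one pair of rows -/
theorem exists_XG (ρ ρ' : Fin n) :
    ∃ X : Finset (Fin n), X.card ^ 2 ≤ 4 * invG A ρ ρ' ∧
      ∀ c1 c2 : Fin n, c1 ∉ X → c2 ∉ X → c1 < c2 → A ρ c1 = true → A ρ c2 = true →
        A ρ' c1 = true → A ρ' c2 = true := by
  classical
  set P : Finset (Fin n) := univ.filter fun c => A ρ c = true ∧ A ρ' c = true with hP
  set Q : Finset (Fin n) := univ.filter fun c => A ρ c = true ∧ A ρ' c = false with hQ
  have hPQ : Disjoint P Q := by
    rw [disjoint_left]
    intro c hc hc'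
    simp only [hP, hQ, mem_filter, mem_univ, true_and] at hc hc'
    rw [hc.2] at hc'
    exact absurd hc'.2 (by simp)
  obtain ⟨X, hX1, hX2⟩ := order_clean P Q hPQ
  refine ⟨X, ?_, ?_⟩
  · refine le_trans hX1 (Nat.mul_le_mul_left _ (card_le_card ?_))
    intro p hp
    simp only [hP, hQ, mem_filter, mem_product, mem_univ, true_and] at hp ⊢
    exact ⟨hp.2, hp.1.1.1, hp.1.2.1, hp.1.1.2, hp.1.2.2⟩
  · intro c1 c2 h1 h2 hc a1 a2 a3
    by_contra a4
    have a4' : A ρ' c2 = false := by simpa using a4
    exact hX2 c1 (by simp [hP, a1, a3]) c2 (by simp [hQ, a2, a4']) h1 h2 hc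

theorem sum_slot_le (h L : ℕ) (hsz : ∀ s, (univ.filter fun i : Fin n => σ i = s).card ≤ h)
    (hL : ∀ i, σ i < L) (g : ℕ → ℕ) : ∑ r : Fin n, g (σ r) ≤ h * ∑ s ∈ range L, g s := by
  classical
  rw [← sum_fiberwise_of_maps_to (s := univ) (t := range L) (g := σ)
    (fun i _ => mem_range.mpr (hL i)), mul_sum]
  apply sum_le_sum
  intro s _
  calc ∑ i ∈ univ.filter (fun i => σ i = s), g (σ i)
      = ∑ _i ∈ univ.filter (fun i : Fin n => σ i = s), g s := by
        apply sum_congr rfl
        intro i hi
        simp only [mem_filter, mem_univ, true_and] at hi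
        rw [hi]
    _ = (univ.filter fun i : Fin n => σ i = s).card * g s := by simp
    _ ≤ h * g s := Nat.mul_le_mul_right _ (hsz s)

end Vale.Agent.Lib.P037
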