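import Mathlib
import Vale.Agent.Lib.P037.Core
import Vale.Agent.Lib.P037.GCore1

open Finset

namespace Vale.Agent.Lib.P037

variable {n : ℕ} (σ : Fin n → ℕ) (A : Fin n → Fin n → Bool)

theorem coreG_abstract (hσ : ∀ i j, σ i < σ j → i < j) (hmono : ∀ i j, i ≤ j → σ i ≤ σ j)
    (h L E K0 γ lam β : ℕ) (hK0 : 0 < K0)
    (hsz : ∀ s, (univ.filter fun i : Fin n => σ i = s).card ≤ h) (hL : ∀ i, σ i < L)
    (hg : ∀ Hh m : ℕ, Hh * (β * lam) ≤ 2 * NG A → m * K0 ≤ n → Hh + m * β < K0) :
    ∃ (B : Fin n → Fin n → Bool) (D m x Bd : ℕ), NoG B ∧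
      ham A B ≤ (nonGood σ A E K0).card + n * (1 + 3 * E + D + γ) + h * Bd ∧
      Bd * γ ≤ n * n ∧ D ≤ m ^ 2 * x ∧ x ^ 2 ≤ 4 * lam ∧ m * K0 ≤ n := by
  classical
  set Gd : Fin n → Finset (Fin n) := fun r =>
    univ.filter fun c => A r c = true ∧ K0 ≤ (Cand σ A E r c).card with hGd
  set xa : Fin n → Fin n := fun r => if hne : (Gd r).Nonempty then (Gd r).min' hne else r with hxa
  set V : Finset (Fin n) := univ.filter fun r => (Gd r).Nonempty with hV
  have hxa_mem : ∀ r ∈ V, xa r ∈ Gd r := by
    intro r hr
    have hne : (Gd r).Nonempty := (mem_filter.mp hr).2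
    simp only [hxa, dif_pos hne]
    exact min'_mem _ _
  have hxa_min : ∀ r ∈ V, ∀ c ∈ Gd r, xa r ≤ c := by
    intro r hr c hc
    have hne : (Gd r).Nonempty := (mem_filter.mp hr).2
    simp only [hxa, dif_pos hne]
    exact min'_le _ _ hc
  set C : Fin n → Finset (Fin n) := fun r => Cand σ A E r (xa r) with hC
  have hCcard : ∀ r ∈ V, K0 ≤ (C r).card := by
    intro r hr
    have := hxa_mem r hr
    simp only [hGd, mem_filter, mem_univ, true_and] at this
    exact this.2
  obtain ⟨P, hPV, hPd, hPc⟩ := vitali_select (fun r => (xa r).val) C V (by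
    intro r hr
    rw [← card_pos]
    exact lt_of_lt_of_le hK0 (hCcard r hr))
  have hPcard : P.card * K0 ≤ n := by
    calc P.card * K0 = ∑ _r ∈ P, K0 := by simp
      _ ≤ ∑ r ∈ P, (C r).card := sum_le_sum fun r hr => hCcard r (hPV hr)
      _ = (P.biUnion C).card := by
          rw [card_biUnion]
          intro a ha b hb hab
          exact hPd a ha b hb hab
      _ ≤ (univ : Finset (Fin n)).card := card_le_card (subset_univ _)
      _ = n := by simp
  obtain ⟨f, hf1, hf2⟩ := greedy_choice id C (BadPair A lam) (BadPair_symm A lam) β _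
    (le_refl _) P (fun i hi => lt_of_lt_of_le (hg _ _ (high_card A lam β) hPcard)
      (hCcard i (hPV hi)))
  set Rep : Finset (Fin n) := P.image f with hRep
  choose X hX1 hX2 using exists_XG A
  set Pairs : Finset (Fin n × Fin n) := (Rep ×ˢ Rep).filter fun q => q.1 < q.2 with hPairs
  set Del : Finset (Fin n) := Pairs.biUnion fun q => X q.1 q.2 with hDel
  set x : ℕ := Pairs.sup fun q => (X q.1 q.2).card with hx
  have hxl : x ^ 2 ≤ 4 * lam := by
    rw [hx]
    apply Finset.sup_induction (p := fun y : ℕ => y ^ 2 ≤ 4 * lam)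
    · simp
    · intro a ha b hb
      rcases le_total a b with hab | hab
      · rw [sup_eq_right.mpr hab]; exact hb
      · rw [sup_eq_left.mpr hab]; exact ha
    · intro q hq
      simp only [hPairs, hRep, mem_filter, mem_product, mem_image] at hq
      obtain ⟨⟨⟨i, hi, hi'⟩, ⟨j, hj, hj'⟩⟩, hlt⟩ := hq
      have hij : i ≠ j := by
        rintro rfl
        rw [← hi', ← hj'] at hlt
        exact lt_irrefl _ hlt
      have hnb := hf2 i hi j hj hij
      rw [hi', hj'] at hnb
      have hle : invG A q.1 q.2 ≤ lam := by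
        by_contra hcon
        exact hnb (Or.inl ⟨hlt, not_le.mp hcon⟩)
      exact le_trans (hX1 _ _) (Nat.mul_le_mul_left _ hle)
  have hDelcard : Del.card ≤ P.card ^ 2 * x := by
    calc Del.card ≤ ∑ q ∈ Pairs, (X q.1 q.2).card := card_biUnion_le
      _ ≤ ∑ _q ∈ Pairs, x := by
          apply sum_le_sum
          intro q hq
          exact Finset.le_sup (f := fun q : Fin n × Fin n => (X q.1 q.2).card) hq
      _ = Pairs.card * x := by simp
      _ ≤ P.card ^ 2 * x := by
          apply Nat.mul_le_mul_right
          calc Pairs.card ≤ (Rep ×ˢ Rep).card := card_le_card (filter_subset _ _)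
            _ = Rep.card * Rep.card := card_product _ _
            _ ≤ P.card * P.card := Nat.mul_le_mul card_image_le card_image_le
            _ = P.card ^ 2 := by ring
  set M : Fin n → Fin n → Bool := fun ρ c => A ρ c && decide (c ∉ Del) with hM
  have hfree : ∀ ρ ∈ Rep, ∀ ρ' ∈ Rep, ρ < ρ' → ∀ c1 c2 : Fin n, c1 < c2 → M ρ c1 = true →
      M ρ c2 = true → M ρ' c1 = true → M ρ' c2 = true := by
    intro ρ hρ ρ' hρ' hlt c1 c2 hc m1 m2 m3
    simp only [hM, Bool.and_eq_true, decide_eq_true_eq] at m1 m2 m3 ⊢
    have hq : (ρ, ρ') ∈ Pairs := by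
      simp only [hPairs, mem_filter, mem_product]
      exact ⟨⟨hρ, hρ'⟩, hlt⟩
    have hn1 : c1 ∉ X ρ ρ' := fun hc1 => m1.2 (mem_biUnion.mpr ⟨_, hq, hc1⟩)
    have hn2 : c2 ∉ X ρ ρ' := fun hc2 => m2.2 (mem_biUnion.mpr ⟨_, hq, hc2⟩)
    exact ⟨hX2 ρ ρ' c1 c2 hn1 hn2 hc m1.1 m2.1 m3.1, m2.2⟩
  -- the new rows
  have hrow : ∀ r : Fin n, ∃ S : Finset (Fin n),
      (S = ∅ ∨ ∃ ρ y : Fin n, σ ρ = σ r ∧ S = (Ftemp σ M Rep γ ρ).filter fun c => y ≤ c) ∧
      (univ.filter fun c => A r c ≠ decide (c ∈ S)).card ≤
        (univ.filter fun c => (r, c) ∈ nonGood σ A E K0).card +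
          (1 + 3 * E + Del.card + γ) + (BadC σ M Rep γ (σ r)).card := by
    intro r
    by_cases hr : r ∈ V
    · obtain ⟨a, haP, hax, hnd⟩ := hPc r hr
      rw [not_disjoint_iff] at hnd
      obtain ⟨t, hta, htr⟩ := hnd
      have hfa := hf1 a haP
      simp only [hC, Cand, mem_filter, mem_univ, true_and] at hta htr hfa
      have hax' : xa a ≤ xa r := hax
      have hsl : σ (f a) = σ r := by
        rw [hfa.1, ← hta.1, htr.1]
      have hdif : Dif A r (f a) (xa r) ≤ 3 * E := by
        have d1 := Dif_triangle A r t (f a) (xa r)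
        have d2 := Dif_triangle A t a (f a) (xa r)
        have d3 := Dif_mono A t a hax'
        have d4 := Dif_mono A a (f a) hax'
        have d5 := Dif_comm A t a (xa a)
        have := hta.2.2
        have := htr.2.2
        have := hfa.2.2
        omega
      have hRepmem : f a ∈ Rep := mem_image_of_mem _ haP
      refine ⟨(Ftemp σ M Rep γ (f a)).filter fun c => xa r ≤ c, Or.inr ⟨f a, xa r, hsl, rfl⟩, ?_⟩
      have hsub : (univ.filter fun c => A r c ≠
          decide (c ∈ (Ftemp σ M Rep γ (f a)).filter fun c => xa r ≤ c)) ⊆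
          (univ.filter fun c => (r, c) ∈ nonGood σ A E K0) ∪ ({xa r} ∪
            ((univ.filter fun c' : Fin n => xa r < c' ∧ A r c' ≠ A (f a) c') ∪ (Del ∪
              (univ.filter fun c => M (f a) c ≠ decide (c ∈ Ftemp σ M Rep γ (f a)))))) := by
        intro c hc
        simp only [mem_filter, mem_univ, true_and, mem_union, mem_singleton] at hc ⊢
        rcases lt_trichotomy c (xa r) with hlt | heq | hgt
        · left
          have h1 : A r c = true := by
            have : ¬ (xa r ≤ c) := not_le.mpr hlt
            simpa [this] using hc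
          simp only [nonGood, mem_filter, mem_univ, true_and]
          refine ⟨h1, ?_⟩
          by_contra hcon
          have : c ∈ Gd r := by
            simp only [hGd, mem_filter, mem_univ, true_and]
            exact ⟨h1, not_lt.mp hcon⟩
          exact absurd (hxa_min r hr c this) (not_le.mpr hlt)
        · right; left; exact heq
        · right; right
          by_cases h1 : A r c = A (f a) c
          · right
            by_cases h2 : c ∈ Del
            · left; exact h2
            · right
              have h3 : M (f a) c = A (f a) c := by simp [hM, h2]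
              rw [h3, ← h1]
              simpa [hgt.le] using hc
          · left
            exact ⟨hgt, h1⟩
      have hcost := Ftemp_cost hσ hfree γ hRepmem
      rw [hsl] at hcost
      have hdif' : (univ.filter fun c' : Fin n => xa r < c' ∧ A r c' ≠ A (f a) c').card ≤ 3 * E :=
        hdif
      calc _ ≤ _ := card_le_card hsub
        _ ≤ (univ.filter fun c => (r, c) ∈ nonGood σ A E K0).card + (({xa r} : Finset (Fin n)).card +
            ((univ.filter fun c' : Fin n => xa r < c' ∧ A r c' ≠ A (f a) c').card + (Del.card +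
              (univ.filter fun c => M (f a) c ≠ decide (c ∈ Ftemp σ M Rep γ (f a))).card))) := by
            refine le_trans (card_union_le _ _) (Nat.add_le_add_left ?_ _)
            refine le_trans (card_union_le _ _) (Nat.add_le_add_left ?_ _)
            refine le_trans (card_union_le _ _) (Nat.add_le_add_left ?_ _)
            exact card_union_le _ _
        _ ≤ _ := by
            rw [card_singleton]
            omega
    · refine ⟨∅, Or.inl rfl, ?_⟩
      refine le_trans (card_le_card ?_) (le_trans (Nat.le_add_right _ _) (Nat.le_add_right _ _))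
      intro c hc
      simp only [mem_filter, mem_univ, true_and, notMem_empty, decide_false, ne_eq,
        Bool.not_eq_false] at hc ⊢
      simp only [nonGood, mem_filter, mem_univ, true_and]
      refine ⟨hc, ?_⟩
      by_contra hcon
      apply hr
      simp only [hV, mem_filter, mem_univ, true_and]
      exact ⟨c, by
        simp only [hGd, mem_filter, mem_univ, true_and]
        exact ⟨hc, not_lt.mp hcon⟩⟩
  choose S hS1 hS2 using hrow
  refine ⟨fun r c => decide (c ∈ S r), Del.card, P.card, x,
    ∑ s ∈ range L, (BadC σ M Rep γ s).card, ?_, ?_, sum_bad_le σ M Rep γ L, hDelcard, hxl, hPcard⟩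
  · -- freeness
    intro r1 r2 c1 c2 hr hc b11 b12 b21 b22
    simp only [decide_eq_true_eq, decide_eq_false_iff_not] at b11 b12 b21 b22
    rcases hS1 r1 with h1 | ⟨ρ1, y1, hs1, h1⟩
    · rw [h1] at b11
      simp at b11
    · rcases hS1 r2 with h2 | ⟨ρ2, y2, hs2, h2⟩
      · rw [h2] at b21
        simp at b21
      · rw [h1] at b11 b12
        rw [h2] at b21 b22
        simp only [mem_filter] at b11 b12 b21 b22
        apply b22
        refine ⟨Ftemp_free hfree γ ?_ hc b11.1 b12.1 b21.1, le_trans b21.2 hc.le⟩
        rw [hs1, hs2]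
        exact hmono _ _ hr.le
  · -- distance
    have e1 : ham A (fun r c => decide (c ∈ S r)) =
        ∑ r : Fin n, (univ.filter fun c => A r c ≠ decide (c ∈ S r)).card := by
      unfold ham
      simp only [card_filter]
      rw [Fintype.sum_prod_type]
    have e2 : (nonGood σ A E K0).card =
        ∑ r : Fin n, (univ.filter fun c => (r, c) ∈ nonGood σ A E K0).card := by
      have : (nonGood σ A E K0).card =
          (univ.filter fun p : Fin n × Fin n => p ∈ nonGood σ A E K0).card := by
        congr 1
        ext p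
        simp
      rw [this]
      simp only [card_filter]
      rw [Fintype.sum_prod_type]
    rw [e1, e2]
    calc ∑ r : Fin n, (univ.filter fun c => A r c ≠ decide (c ∈ S r)).card
        ≤ ∑ r : Fin n, ((univ.filter fun c => (r, c) ∈ nonGood σ A E K0).card +
          (1 + 3 * E + Del.card + γ) + (BadC σ M Rep γ (σ r)).card) := sum_le_sum fun r _ => hS2 r
      _ = ∑ r : Fin n, (univ.filter fun c => (r, c) ∈ nonGood σ A E K0).card +
          n * (1 + 3 * E + Del.card + γ) + ∑ r : Fin n, (BadC σ M Rep γ (σ r)).card := by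
          rw [sum_add_distrib, sum_add_distrib]
          simp
      _ ≤ _ := Nat.add_le_add_left
          (sum_slot_le σ h L hsz hL (fun s => (BadC σ M Rep γ s).card)) _

end Vale.Agent.Lib.P037
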