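import Mathlib

namespace Vale.Agent.Lib.P037

theorem caseD (n K x μ N D2 : ℕ) (h1 : n ≤ 4 * K * D2) (h2 : D2 ≤ 2 ^ 34 * K ^ 8 * x)
    (h3 : n ≤ 2 ^ 36 * K ^ 9 * μ) (h4 : x ^ 2 * μ ^ 2 ≤ N) :
    n ^ 4 ≤ 2 ^ 144 * K ^ 36 * N := by
  have h5 : n ≤ 2 ^ 36 * K ^ 9 * x := by
    calc n ≤ 4 * K * D2 := h1
      _ ≤ 4 * K * (2 ^ 34 * K ^ 8 * x) := Nat.mul_le_mul_left _ h2
      _ = 2 ^ 36 * K ^ 9 * x := by ring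
  have h6 : n * n ≤ (2 ^ 36 * K ^ 9 * x) * (2 ^ 36 * K ^ 9 * μ) := Nat.mul_le_mul h5 h3
  calc n ^ 4 = (n * n) ^ 2 := by ring
    _ ≤ ((2 ^ 36 * K ^ 9 * x) * (2 ^ 36 * K ^ 9 * μ)) ^ 2 := Nat.pow_le_pow_left h6 2
    _ = 2 ^ 144 * K ^ 36 * (x ^ 2 * μ ^ 2) := by ring
    _ ≤ _ := Nat.mul_le_mul_left _ h4

theorem caseR (n K R M N h e : ℕ) (hn : 0 < n) (hK : 0 < K) (h1 : n ^ 2 ≤ 2 * K * R)
    (h2 : R ^ 2 ≤ 4 * n * (M + n ^ 2 * e)) (h3 : 128 * K ^ 2 * e ≤ n)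
    (h4 : M ^ 2 ≤ n ^ 2 * (h * M + 4 * N)) (h5 : 64 * K ^ 2 * h ≤ n) :
    n ^ 4 ≤ 2 ^ 16 * K ^ 4 * N := by
  -- step 1
  have s1 : n ^ 4 ≤ 16 * K ^ 2 * n * (M + n ^ 2 * e) := by
    calc n ^ 4 = (n ^ 2) ^ 2 := by ring
      _ ≤ (2 * K * R) ^ 2 := Nat.pow_le_pow_left h1 2
      _ = 4 * K ^ 2 * R ^ 2 := by ring
      _ ≤ 4 * K ^ 2 * (4 * n * (M + n ^ 2 * e)) := Nat.mul_le_mul_left _ h2
      _ = _ := by ring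
  have s2 : 128 * K ^ 2 * n ^ 3 * e ≤ n ^ 4 := by
    calc 128 * K ^ 2 * n ^ 3 * e = n ^ 3 * (128 * K ^ 2 * e) := by ring
      _ ≤ n ^ 3 * n := Nat.mul_le_mul_left _ h3
      _ = n ^ 4 := by ring
  have s3 : n * (7 * n ^ 3) ≤ n * (128 * K ^ 2 * M) := by
    have e1 : 16 * K ^ 2 * n * (M + n ^ 2 * e) * 8 =
      n * (128 * K ^ 2 * M) + 128 * K ^ 2 * n ^ 3 * e := by ring
    have e2 : n * (7 * n ^ 3) = 7 * n ^ 4 := by ring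
    omega
  have s4 : 7 * n ^ 3 ≤ 128 * K ^ 2 * M := Nat.le_of_mul_le_mul_left s3 hn
  have s5 : 64 * K ^ 2 * M ^ 2 ≤ n ^ 3 * M + 256 * K ^ 2 * n ^ 2 * N := by
    calc 64 * K ^ 2 * M ^ 2 ≤ 64 * K ^ 2 * (n ^ 2 * (h * M + 4 * N)) := Nat.mul_le_mul_left _ h4
      _ = n ^ 2 * M * (64 * K ^ 2 * h) + 256 * K ^ 2 * n ^ 2 * N := by ring
      _ ≤ n ^ 2 * M * n + 256 * K ^ 2 * n ^ 2 * N :=
          Nat.add_le_add_right (Nat.mul_le_mul_left _ h5) _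
      _ = _ := by ring
  have s6 : 7 * n ^ 3 * M ≤ 2 * (64 * K ^ 2 * M ^ 2) := by
    calc 7 * n ^ 3 * M ≤ 128 * K ^ 2 * M * M := Nat.mul_le_mul_right _ s4
      _ = _ := by ring
  have s7 : n ^ 2 * (5 * n * M) ≤ n ^ 2 * (512 * K ^ 2 * N) := by
    have e1 : n ^ 2 * (5 * n * M) = 5 * (n ^ 3 * M) := by ring
    have e2 : n ^ 2 * (512 * K ^ 2 * N) = 2 * (256 * K ^ 2 * n ^ 2 * N) := by ring
    have e3 : 7 * n ^ 3 * M = 7 * (n ^ 3 * M) := by ring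
    omega
  have s8 : 5 * n * M ≤ 512 * K ^ 2 * N := Nat.le_of_mul_le_mul_left s7 (by positivity)
  have s9 : 35 * n ^ 4 ≤ 2 ^ 16 * K ^ 4 * N := by
    calc 35 * n ^ 4 = 5 * n * (7 * n ^ 3) := by ring
      _ ≤ 5 * n * (128 * K ^ 2 * M) := Nat.mul_le_mul_left _ s4
      _ = 128 * K ^ 2 * (5 * n * M) := by ring
      _ ≤ 128 * K ^ 2 * (512 * K ^ 2 * N) := Nat.mul_le_mul_left _ s8
      _ = _ := by ring
  omega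

theorem final_arith (n K μ D1 D2 R x M N hm : ℕ) (hn : 0 < n) (hK : 0 < K)
    (hμ1 : 2 ^ 35 * K ^ 9 * μ ≤ n) (hμ2 : n ≤ 2 ^ 36 * K ^ 9 * μ)
    (hfar : n ^ 2 ≤ K * hm)
    (h1 : hm ≤ n * (D1 + D2) + R)
    (h2 : (2 ^ 19 * K ^ 5) * D1 ≤ (2 ^ 7 * K ^ 2) * (2 ^ 9 * K ^ 2 + 1) * n)
    (h3 : D2 ≤ ((2 ^ 7 * K ^ 2) * (2 ^ 9 * K ^ 2 + 2)) ^ 2 * x)
    (h4 : x ^ 2 * μ ^ 2 ≤ N)
    (h5 : R ^ 2 ≤ 4 * n * (M + n ^ 2 * ((2 ^ 7 * K ^ 2) * (4 * μ * (2 ^ 19 * K ^ 5)))))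
    (h6 : M ^ 2 ≤ n ^ 2 * (2 * μ * (2 ^ 19 * K ^ 5) * (2 ^ 9 * K ^ 2) * M + 4 * N)) :
    n ^ 4 ≤ 2 ^ 144 * K ^ 36 * N := by
  have hK2 : 1 ≤ K ^ 2 := Nat.one_le_pow _ _ hK
  -- D1 is small
  have a1 : (2 ^ 17 * K ^ 4) * (4 * K * D1) ≤ (2 ^ 17 * K ^ 4) * n := by
    calc (2 ^ 17 * K ^ 4) * (4 * K * D1) = (2 ^ 19 * K ^ 5) * D1 := by ring
      _ ≤ (2 ^ 7 * K ^ 2) * (2 ^ 9 * K ^ 2 + 1) * n := h2
      _ ≤ (2 ^ 7 * K ^ 2) * (2 ^ 10 * K ^ 2) * n := by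
          apply Nat.mul_le_mul_right
          apply Nat.mul_le_mul_left
          omega
      _ = _ := by ring
  have a2 : 4 * K * D1 ≤ n := Nat.le_of_mul_le_mul_left a1 (by positivity)
  have a3 : D2 ≤ 2 ^ 34 * K ^ 8 * x := by
    calc D2 ≤ ((2 ^ 7 * K ^ 2) * (2 ^ 9 * K ^ 2 + 2)) ^ 2 * x := h3
      _ ≤ ((2 ^ 7 * K ^ 2) * (2 ^ 10 * K ^ 2)) ^ 2 * x := by
          apply Nat.mul_le_mul_right
          apply Nat.pow_le_pow_left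
          apply Nat.mul_le_mul_left
          omega
      _ = _ := by ring
  have a4 : 4 * n ^ 2 ≤ n * (4 * K * D1) + n * (4 * K * D2) + 4 * K * R := by
    calc 4 * n ^ 2 ≤ 4 * (K * hm) := Nat.mul_le_mul_left _ hfar
      _ ≤ 4 * (K * (n * (D1 + D2) + R)) :=
          Nat.mul_le_mul_left _ (Nat.mul_le_mul_left _ h1)
      _ = _ := by ring
  have a5 : n * (4 * K * D1) ≤ n ^ 2 := by
    calc n * (4 * K * D1) ≤ n * n := Nat.mul_le_mul_left _ a2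
      _ = n ^ 2 := by ring
  rcases Nat.lt_or_ge (n * (4 * K * D2)) (n * n) with hc | hc
  · -- the row case
    have b1 : n ^ 2 ≤ 2 * K * R := by
      have : n * n = n ^ 2 := by ring
      have : 4 * K * R = 2 * (2 * K * R) := by ring
      omega
    have b2 := caseR n K R M N (2 * μ * (2 ^ 19 * K ^ 5) * (2 ^ 9 * K ^ 2))
      ((2 ^ 7 * K ^ 2) * (4 * μ * (2 ^ 19 * K ^ 5))) hn hK b1 h5
      (by
        calc 128 * K ^ 2 * ((2 ^ 7 * K ^ 2) * (4 * μ * (2 ^ 19 * K ^ 5)))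
            = 2 ^ 35 * K ^ 9 * μ := by ring
          _ ≤ n := hμ1) h6
      (by
        calc 64 * K ^ 2 * (2 * μ * (2 ^ 19 * K ^ 5) * (2 ^ 9 * K ^ 2))
            = 2 ^ 35 * K ^ 9 * μ := by ring
          _ ≤ n := hμ1)
    calc n ^ 4 ≤ 2 ^ 16 * K ^ 4 * N := b2
      _ ≤ 2 ^ 144 * K ^ 36 * N := by
          apply Nat.mul_le_mul_right
          exact Nat.mul_le_mul (Nat.pow_le_pow_right (by norm_num) (by norm_num))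
            (Nat.pow_le_pow_right hK (by norm_num))
  · have c1 : n ≤ 4 * K * D2 := Nat.le_of_mul_le_mul_left hc hn
    exact caseD n K x μ N D2 c1 a3 hμ2 h4

end Vale.Agent.Lib.P037
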