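import Mathlib
import Vale.Agent.Lib.P037.Defs
import Vale.Agent.Lib.P037.Core
import Vale.Agent.Lib.P037.Arith

open Finset

namespace Vale.Agent.Lib.P037

variable {n : ℕ}

theorem noQuad_of_N4 (A : Fin n → Fin n → Bool) (h : N4 A = 0) : NoQuad A := by
  intro r1 r2 c1 c2 hr hc h1 h2 h3 h4
  unfold N4 at h
  rw [card_eq_zero, filter_eq_empty_iff] at h
  exact h (mem_univ ((r1, r2), (c1, c2))) ⟨hr, hc, h1, h2, h3, h4⟩

theorem ham_self (A : Fin n → Fin n → Bool) : ham A A = 0 := by
  unfold ham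
  simp

theorem slot_card (h : ℕ) (hh : 0 < h) (s : ℕ) :
    (univ.filter fun i : Fin n => i.val / h = s).card ≤ h := by
  classical
  have : (univ.filter fun i : Fin n => i.val / h = s).card ≤ (range h).card := by
    apply card_le_card_of_injOn (fun i => i.val % h)
    · intro i _
      simp only [coe_range, Set.mem_Iio]
      exact Nat.mod_lt _ hh
    · intro i hi j hj hij
      simp only [coe_filter, mem_univ, true_and, Set.mem_setOf_eq] at hi hj
      simp only at hij
      apply Fin.ext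
      rw [← Nat.div_add_mod i.val h, ← Nat.div_add_mod j.val h, hi, hj, hij]
  simpa using this

theorem nat_removal (K : ℕ) (hK : 0 < K) (A : Fin n → Fin n → Bool)
    (hfar : ∀ B, NoQuad B → n ^ 2 ≤ K * ham A B) : n ^ 4 ≤ 2 ^ 144 * K ^ 36 * N4 A := by
  rcases Nat.eq_zero_or_pos n with hn | hn
  · subst hn
    simp
  have hN : 0 < N4 A := by
    rcases Nat.eq_zero_or_pos (N4 A) with h0 | h0
    · have := hfar A (noQuad_of_N4 A h0)
      rw [ham_self] at this
      have h2 : 0 < n ^ 2 := by positivity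
      omega
    · exact h0
  have hc : 0 < 2 ^ 35 * K ^ 9 := by positivity
  set μ := n / (2 ^ 35 * K ^ 9) with hμdef
  rcases Nat.eq_zero_or_pos μ with hμ | hμ
  · have h1 : n < 2 ^ 35 * K ^ 9 := by
      rw [hμdef] at hμ
      exact (Nat.div_eq_zero_iff_lt hc).mp hμ
    calc n ^ 4 ≤ (2 ^ 35 * K ^ 9) ^ 4 := Nat.pow_le_pow_left h1.le 4
      _ = 2 ^ 140 * K ^ 36 * 1 := by ring
      _ ≤ 2 ^ 144 * K ^ 36 * N4 A := by
          apply Nat.mul_le_mul _ hN
          apply Nat.mul_le_mul_right
          exact Nat.pow_le_pow_right (by norm_num) (by norm_num)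
  · have hμ1 : 2 ^ 35 * K ^ 9 * μ ≤ n := Nat.mul_div_le n _
    have hμ2 : n ≤ 2 ^ 36 * K ^ 9 * μ := by
      have h1 : n < 2 ^ 35 * K ^ 9 * (μ + 1) := Nat.lt_mul_div_succ n hc
      have h2 : 2 ^ 35 * K ^ 9 * (μ + 1) ≤ 2 ^ 35 * K ^ 9 * (2 * μ) :=
        Nat.mul_le_mul_left _ (by omega)
      have h3 : 2 ^ 35 * K ^ 9 * (2 * μ) = 2 ^ 36 * K ^ 9 * μ := by ring
      omega
    set h := 2 * μ * (2 ^ 19 * K ^ 5) * (2 ^ 9 * K ^ 2) with hh
    have hpos : 0 < h := by positivity
    obtain ⟨B, D1, D2, R, x, M, hB, g1, g2, g3, g4, g5, g6⟩ :=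
      core_abstract A (fun i => i.val / h)
        (by
          intro i j hij
          by_contra hcon
          have : j.val ≤ i.val := by
            have := not_lt.mp hcon
            exact this
          have := Nat.div_le_div_right (c := h) this
          omega)
        (by
          intro i j hij
          exact Nat.div_le_div_right hij)
        μ (2 ^ 19 * K ^ 5) (2 ^ 9 * K ^ 2) (2 ^ 7 * K ^ 2) hμ (by positivity)
        (fun s => slot_card h hpos s)
        (by
          intro i
          rw [Nat.div_lt_iff_lt_mul hpos]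
          have e : 2 ^ 7 * K ^ 2 * h = 2 ^ 36 * K ^ 9 * μ := by
            rw [hh]; ring
          have := i.isLt
          omega)
    exact final_arith n K μ D1 D2 R x M (N4 A) (ham A B) hn hK hμ1 hμ2 (hfar B hB) g1 g2 g3 g4 g5 g6

/-- the identity pattern -/
def I2 : Fin 2 → Fin 2 → Bool := ![![true, false], ![false, true]]

theorem isFree_of_noQuad (B : Fin n → Fin n → Bool) (h : IsFree I2 B) : NoQuad B := by
  intro r1 r2 c1 c2 hr hc h1 h2 h3 h4
  unfold IsFree at h
  have hmem : ((![r1, r2], ![c1, c2]) : (Fin 2 → Fin n) × (Fin 2 → Fin n)) ∈ copies I2 B := by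
    refine ⟨?_, ?_, ?_⟩
    · intro i j hij
      fin_cases i <;> fin_cases j <;> simp_all
    · intro i j hij
      fin_cases i <;> fin_cases j <;> simp_all
    · intro i j
      fin_cases i <;> fin_cases j <;> simp [I2, h1, h2, h3, h4]
  rw [h] at hmem
  exact hmem

theorem noQuad_isFree (B : Fin n → Fin n → Bool) (h : NoQuad B) : IsFree I2 B := by
  unfold IsFree
  rw [Set.eq_empty_iff_forall_notMem]
  rintro ⟨f, g⟩ ⟨hf, hg, hfg⟩
  simp only at hf hg hfg
  exact h (f 0) (f 1) (g 0) (g 1) (hf (by decide)) (hg (by decide))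
    (by rw [hfg]; rfl) (by rw [hfg]; rfl) (by rw [hfg]; rfl) (by rw [hfg]; rfl)

theorem N4_le_copyCount (A : Fin n → Fin n → Bool) : N4 A ≤ copyCount I2 A := by
  classical
  unfold N4 copyCount
  rw [← Set.ncard_coe_finset]
  apply Set.ncard_le_ncard_of_injOn
    (fun q : (Fin n × Fin n) × (Fin n × Fin n) => (![q.1.1, q.1.2], ![q.2.1, q.2.2]))
  · intro q hq
    simp only [coe_filter, mem_univ, true_and, Set.mem_setOf_eq] at hq
    obtain ⟨hr, hc, h1, h2, h3, h4⟩ := hq
    refine ⟨?_, ?_, ?_⟩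
    · intro i j hij
      fin_cases i <;> fin_cases j <;> simp_all
    · intro i j hij
      fin_cases i <;> fin_cases j <;> simp_all
    · intro i j
      fin_cases i <;> fin_cases j <;> simp [I2, h1, h2, h3, h4]
  · intro q _ q' _ hqq
    simp only [Prod.mk.injEq] at hqq
    have a1 := congrFun hqq.1 0
    have a2 := congrFun hqq.1 1
    have a3 := congrFun hqq.2 0
    have a4 := congrFun hqq.2 1
    simp at a1 a2 a3 a4
    ext <;> simp [a1, a2, a3, a4]

end Vale.Agent.Lib.P037
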