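import Mathlib
import Vale.Agent.Lib.P037.Defs
import Vale.Agent.Lib.P037.Main
import Vale.Agent.Lib.P037.GCore2
import Vale.Agent.Lib.P037.GArith

open Finset

namespace Vale.Agent.Lib.P037

variable {n : ℕ}

theorem noG_of_NG (A : Fin n → Fin n → Bool) (h : NG A = 0) : NoG A := by
  intro r1 r2 c1 c2 hr hc h1 h2 h3 h4
  unfold NG at h
  rw [card_eq_zero, filter_eq_empty_iff] at h
  exact h (mem_univ ((r1, r2), (c1, c2))) ⟨hr, hc, h1, h2, h3, h4⟩

theorem nat_removalG (K : ℕ) (hK : 0 < K) (A : Fin n → Fin n → Bool)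
    (hfar : ∀ B, NoG B → n ^ 2 ≤ K * ham A B) : n ^ 4 ≤ 2 ^ 160 * K ^ 28 * NG A := by
  rcases Nat.eq_zero_or_pos n with hn | hn
  · subst hn
    simp
  have hN : 0 < NG A := by
    rcases Nat.eq_zero_or_pos (NG A) with h0 | h0
    · have := hfar A (noG_of_NG A h0)
      rw [ham_self] at this
      have h2 : 0 < n ^ 2 := by positivity
      omega
    · exact h0
  have hc : 0 < 2 ^ 39 * K ^ 7 := by positivity
  set u := n / (2 ^ 39 * K ^ 7) with hudef
  rcases Nat.eq_zero_or_pos u with hu | hu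
  · have h1 : n < 2 ^ 39 * K ^ 7 := by
      rw [hudef] at hu
      exact (Nat.div_eq_zero_iff_lt hc).mp hu
    calc n ^ 4 ≤ (2 ^ 39 * K ^ 7) ^ 4 := Nat.pow_le_pow_left h1.le 4
      _ = 2 ^ 156 * K ^ 28 * 1 := by ring
      _ ≤ 2 ^ 160 * K ^ 28 * NG A := by
          apply Nat.mul_le_mul _ hN
          apply Nat.mul_le_mul_right
          exact Nat.pow_le_pow_right (by norm_num) (by norm_num)
  · have hW1 : 2 ^ 39 * K ^ 7 * u ≤ n := Nat.mul_div_le n _
    have hW2 : n < 2 ^ 40 * K ^ 7 * u := by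
      have h1 : n < 2 ^ 39 * K ^ 7 * (u + 1) := Nat.lt_mul_div_succ n hc
      have h2 : 2 ^ 39 * K ^ 7 * (u + 1) ≤ 2 ^ 39 * K ^ 7 * (2 * u) :=
        Nat.mul_le_mul_left _ (by omega)
      have h3 : 2 ^ 39 * K ^ 7 * (2 * u) = 2 ^ 40 * K ^ 7 * u := by ring
      omega
    by_cases hg : ∀ Hh m : ℕ, Hh * ((32 * K * u) * u ^ 2) ≤ 2 * NG A →
        m * (2 ^ 23 * K ^ 4 * u) ≤ n → Hh + m * (32 * K * u) < 2 ^ 23 * K ^ 4 * u
    · set h := 2 ^ 29 * K ^ 5 * u with hh
      have hpos : 0 < h := by positivity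
      have hσ : ∀ i j : Fin n, i.val / h < j.val / h → i < j := by
        intro i j hij
        by_contra hcon
        have : j.val ≤ i.val := by
          have := not_lt.mp hcon
          exact this
        have := Nat.div_le_div_right (c := h) this
        omega
      have hL : ∀ i : Fin n, i.val / h < 2 ^ 11 * K ^ 2 := by
        intro i
        rw [Nat.div_lt_iff_lt_mul hpos]
        have e : 2 ^ 11 * K ^ 2 * h = 2 ^ 40 * K ^ 7 * u := by
          rw [hh]; ring
        have := i.isLt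
        omega
      obtain ⟨B, D, m, x, Bd, hB, g1, g2, g3, g4, g5⟩ :=
        coreG_abstract (fun i : Fin n => i.val / h) A hσ
          (by
            intro i j hij
            exact Nat.div_le_div_right hij)
          h (2 ^ 11 * K ^ 2) (2 ^ 33 * K ^ 6 * u) (2 ^ 23 * K ^ 4 * u) (2 ^ 33 * K ^ 6 * u)
          (u ^ 2) (32 * K * u) (by positivity) (fun s => slot_card h hpos s) hL hg
      have g6 := nonGood_card_le (fun i : Fin n => i.val / h) A (2 ^ 33 * K ^ 6 * u)
        (2 ^ 23 * K ^ 4 * u) (2 ^ 11 * K ^ 2) hL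
      have g7 := M2G_sq_le (fun i : Fin n => i.val / h) A hσ h (fun s => slot_card h hpos s)
        (2 ^ 11 * K ^ 2)
      exact arithG_main n K u (NG A) (ham A B) _ D m x Bd _ hn hK hu hW1 hW2 (hfar B hB) g1 g2 g3
        g4 g5 g6 g7
    · push Not at hg
      obtain ⟨Hh, m, h1, h2, h3⟩ := hg
      exact arithG_greedy n K u (NG A) Hh m hK hu hW2 h1 h2 h3

/-- the pattern with a single zero in the lower right corner -/
def G2 : Fin 2 → Fin 2 → Bool := ![![true, true], ![true, false]]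

theorem noG_isFree (B : Fin n → Fin n → Bool) (h : NoG B) : IsFree G2 B := by
  unfold IsFree
  rw [Set.eq_empty_iff_forall_notMem]
  rintro ⟨f, g⟩ ⟨hf, hg, hfg⟩
  simp only at hf hg hfg
  exact h (f 0) (f 1) (g 0) (g 1) (hf (by decide)) (hg (by decide))
    (by rw [hfg]; rfl) (by rw [hfg]; rfl) (by rw [hfg]; rfl) (by rw [hfg]; rfl)

theorem NG_le_copyCount (A : Fin n → Fin n → Bool) : NG A ≤ copyCount G2 A := by
  classical
  unfold NG copyCount
  rw [← Set.ncard_coe_finset]
  apply Set.ncard_le_ncard_of_injOn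
    (fun q : (Fin n × Fin n) × (Fin n × Fin n) => (![q.1.1, q.1.2], ![q.2.1, q.2.2]))
  · intro q hq
    simp only [coe_filter, mem_univ, true_and, Set.mem_setOf_eq] at hq
    obtain ⟨hr, hc, h1, h2, h3, h4⟩ := hq
    refine ⟨?_, ?_, ?_⟩
    · intro i j hij
      fin_cases i <;> fin_cases j <;> simp_all
    · intro i j hij
      fin_cases i <;> fin_cases j <;> simp_all
    · intro i j
      fin_cases i <;> fin_cases j <;> simp [G2, h1, h2, h3, h4]
  · intro q _ q' _ hqq
    simp only [Prod.mk.injEq] at hqq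
    have a1 := congrFun hqq.1 0
    have a2 := congrFun hqq.1 1
    have a3 := congrFun hqq.2 0
    have a4 := congrFun hqq.2 1
    simp at a1 a2 a3 a4
    ext <;> simp [a1, a2, a3, a4]

end Vale.Agent.Lib.P037
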