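import Mathlib
import Vale.Agent.Lib.P037.Defs

open Finset

namespace Vale.Agent.Lib.P037

/-- the removal statement for a `2 × 2` pattern -/
def Rem (H : Fin 2 → Fin 2 → Bool) : Prop :=
  ∀ (n : ℕ) (ε : ℝ), 0 < ε → ε < 1 → ∀ A : Fin n → Fin n → Bool,
    (∀ B : Fin n → Fin n → Bool, IsFree H B → ε * (n : ℝ) ^ 2 ≤ (hamming A B : ℝ)) →
    ε ^ 36 / 2 ^ 188 * (n : ℝ) ^ 4 ≤ (copyCount H A : ℝ)

theorem isFree_iff {k n : ℕ} (H : Fin k → Fin k → Bool) (B : Fin n → Fin n → Bool) :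
    IsFree H B ↔ copyCount H B = 0 := by
  unfold IsFree copyCount
  rw [Set.ncard_eq_zero (Set.toFinite _)]

theorem Rem_symm (Φ : ∀ m : ℕ, (Fin m → Fin m → Bool) → (Fin m → Fin m → Bool))
    (hinv : ∀ m A, Φ m (Φ m A) = A)
    (hcop : ∀ (k n : ℕ) (H : Fin k → Fin k → Bool) (A : Fin n → Fin n → Bool),
      copyCount (Φ k H) (Φ n A) = copyCount H A)
    (hham : ∀ (n : ℕ) (A B : Fin n → Fin n → Bool), hamming (Φ n A) (Φ n B) = hamming A B)
    (H : Fin 2 → Fin 2 → Bool) (hH : Rem H) : Rem (Φ 2 H) := by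
  intro n ε h0 h1 A hfar
  have h2 := hH n ε h0 h1 (Φ n A) (by
    intro B hB
    have h3 := hfar (Φ n B) (by
      rw [isFree_iff, hcop]
      exact (isFree_iff H B).mp hB)
    rw [← hham, hinv] at h3
    exact h3)
  rw [← hcop, hinv] at h2
  exact h2

/-- a general principle: an involution of the index pairs carrying copies to copies -/
theorem copyCount_eq_of_invol {k n : ℕ} (H H' : Fin k → Fin k → Bool)
    (A A' : Fin n → Fin n → Bool)
    (e : (Fin k → Fin n) × (Fin k → Fin n) → (Fin k → Fin n) × (Fin k → Fin n))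
    (he : ∀ p, e (e p) = p) (h1 : ∀ p ∈ copies H A, e p ∈ copies H' A')
    (h2 : ∀ p ∈ copies H' A', e p ∈ copies H A) : copyCount H' A' = copyCount H A := by
  unfold copyCount
  have hinj : Function.Injective e := by
    intro p q hpq
    rw [← he p, ← he q, hpq]
  have himg : copies H' A' = e '' copies H A := by
    ext p
    constructor
    · intro hp
      exact ⟨e p, h2 p hp, he p⟩
    · rintro ⟨q, hq, rfl⟩
      exact h1 q hq
  rw [himg, Set.ncard_image_of_injective _ hinj]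

/-- reversal of the rows -/
def revR (m : ℕ) (A : Fin m → Fin m → Bool) : Fin m → Fin m → Bool := fun i j => A (Fin.rev i) j

/-- reversal of the columns -/
def revC (m : ℕ) (A : Fin m → Fin m → Bool) : Fin m → Fin m → Bool := fun i j => A i (Fin.rev j)

/-- transposition -/
def trsp (m : ℕ) (A : Fin m → Fin m → Bool) : Fin m → Fin m → Bool := fun i j => A j i

/-- complement -/
def cmpl (m : ℕ) (A : Fin m → Fin m → Bool) : Fin m → Fin m → Bool := fun i j => !A i j

theorem strictMono_rev {k n : ℕ} (f : Fin k → Fin n) (hf : StrictMono f) :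
    StrictMono (fun i => Fin.rev (f (Fin.rev i))) := by
  intro i j hij
  simp only
  rw [Fin.rev_lt_rev]
  exact hf (Fin.rev_lt_rev.mpr hij)

theorem copyCount_revR (k n : ℕ) (H : Fin k → Fin k → Bool) (A : Fin n → Fin n → Bool) :
    copyCount (revR k H) (revR n A) = copyCount H A := by
  apply copyCount_eq_of_invol H (revR k H) A (revR n A)
    (fun p => (fun i => Fin.rev (p.1 (Fin.rev i)), p.2))
  · intro p
    simp
  · rintro ⟨f, g⟩ ⟨hf, hg, hfg⟩
    refine ⟨strictMono_rev f hf, hg, ?_⟩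
    intro i j
    simp only [revR, Fin.rev_rev]
    exact hfg _ _
  · rintro ⟨f, g⟩ ⟨hf, hg, hfg⟩
    refine ⟨strictMono_rev f hf, hg, ?_⟩
    intro i j
    have := hfg (Fin.rev i) j
    simp only [revR, Fin.rev_rev] at this
    exact this

theorem copyCount_revC (k n : ℕ) (H : Fin k → Fin k → Bool) (A : Fin n → Fin n → Bool) :
    copyCount (revC k H) (revC n A) = copyCount H A := by
  apply copyCount_eq_of_invol H (revC k H) A (revC n A)
    (fun p => (p.1, fun i => Fin.rev (p.2 (Fin.rev i))))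
  · intro p
    simp
  · rintro ⟨f, g⟩ ⟨hf, hg, hfg⟩
    refine ⟨hf, strictMono_rev g hg, ?_⟩
    intro i j
    simp only [revC, Fin.rev_rev]
    exact hfg _ _
  · rintro ⟨f, g⟩ ⟨hf, hg, hfg⟩
    refine ⟨hf, strictMono_rev g hg, ?_⟩
    intro i j
    have := hfg i (Fin.rev j)
    simp only [revC, Fin.rev_rev] at this
    exact this

theorem copyCount_trsp (k n : ℕ) (H : Fin k → Fin k → Bool) (A : Fin n → Fin n → Bool) :
    copyCount (trsp k H) (trsp n A) = copyCount H A := by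
  apply copyCount_eq_of_invol H (trsp k H) A (trsp n A) (fun p => (p.2, p.1))
  · intro p
    rfl
  · rintro ⟨f, g⟩ ⟨hf, hg, hfg⟩
    exact ⟨hg, hf, fun i j => hfg j i⟩
  · rintro ⟨f, g⟩ ⟨hf, hg, hfg⟩
    exact ⟨hg, hf, fun i j => hfg j i⟩

theorem copyCount_cmpl (k n : ℕ) (H : Fin k → Fin k → Bool) (A : Fin n → Fin n → Bool) :
    copyCount (cmpl k H) (cmpl n A) = copyCount H A := by
  apply copyCount_eq_of_invol H (cmpl k H) A (cmpl n A) id
  · intro p
    rfl
  · rintro ⟨f, g⟩ ⟨hf, hg, hfg⟩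
    refine ⟨hf, hg, fun i j => ?_⟩
    simp only [cmpl, id]
    rw [hfg]
  · rintro ⟨f, g⟩ ⟨hf, hg, hfg⟩
    refine ⟨hf, hg, fun i j => ?_⟩
    have := hfg i j
    simp only [cmpl] at this
    simpa using this

theorem hamming_revR (n : ℕ) (A B : Fin n → Fin n → Bool) :
    hamming (revR n A) (revR n B) = hamming A B := by
  unfold hamming revR
  apply card_bij (fun p _ => (Fin.rev p.1, p.2))
  · intro p hp
    simpa using hp
  · intro p _ q _ hpq
    simp only [Prod.mk.injEq, Fin.rev_inj] at hpq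
    exact Prod.ext hpq.1 hpq.2
  · intro p hp
    exact ⟨(Fin.rev p.1, p.2), by simpa using hp, by simp⟩

theorem hamming_revC (n : ℕ) (A B : Fin n → Fin n → Bool) :
    hamming (revC n A) (revC n B) = hamming A B := by
  unfold hamming revC
  apply card_bij (fun p _ => (p.1, Fin.rev p.2))
  · intro p hp
    simpa using hp
  · intro p _ q _ hpq
    simp only [Prod.mk.injEq, Fin.rev_inj] at hpq
    exact Prod.ext hpq.1 hpq.2
  · intro p hp
    exact ⟨(p.1, Fin.rev p.2), by simpa using hp, by simp⟩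

theorem hamming_trsp (n : ℕ) (A B : Fin n → Fin n → Bool) :
    hamming (trsp n A) (trsp n B) = hamming A B := by
  unfold hamming trsp
  apply card_bij (fun p _ => (p.2, p.1))
  · intro p hp
    simpa using hp
  · intro p _ q _ hpq
    simp only [Prod.mk.injEq] at hpq
    exact Prod.ext hpq.2 hpq.1
  · intro p hp
    exact ⟨(p.2, p.1), by simpa using hp, by simp⟩

theorem hamming_cmpl (n : ℕ) (A B : Fin n → Fin n → Bool) :
    hamming (cmpl n A) (cmpl n B) = hamming A B := by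
  unfold hamming cmpl
  congr 1
  ext p
  simp

theorem Rem_revR (H : Fin 2 → Fin 2 → Bool) (hH : Rem H) : Rem (revR 2 H) :=
  Rem_symm revR (fun m A => by funext i j; simp [revR]) copyCount_revR hamming_revR H hH

theorem Rem_revC (H : Fin 2 → Fin 2 → Bool) (hH : Rem H) : Rem (revC 2 H) :=
  Rem_symm revC (fun m A => by funext i j; simp [revC]) copyCount_revC hamming_revC H hH

theorem Rem_trsp (H : Fin 2 → Fin 2 → Bool) (hH : Rem H) : Rem (trsp 2 H) :=
  Rem_symm trsp (fun m A => by funext i j; simp [trsp]) copyCount_trsp hamming_trsp H hH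

theorem Rem_cmpl (H : Fin 2 → Fin 2 → Bool) (hH : Rem H) : Rem (cmpl 2 H) :=
  Rem_symm cmpl (fun m A => by funext i j; simp [cmpl]) copyCount_cmpl hamming_cmpl H hH

/-- passage from the integer form of a removal statement to the real form -/
theorem Rem_of_nat (H : Fin 2 → Fin 2 → Bool) (a e : ℕ) (he : e ≤ 36) (hae : a + e ≤ 188)
    (hnat : ∀ (n K : ℕ), 0 < K → ∀ A : Fin n → Fin n → Bool,
      (∀ B : Fin n → Fin n → Bool, IsFree H B → n ^ 2 ≤ K * hamming A B) →
      n ^ 4 ≤ 2 ^ a * K ^ e * copyCount H A) : Rem H := by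
  intro n ε hε0 hε1 A hfar
  set K : ℕ := ⌈1 / ε⌉₊ with hKdef
  have hK1 : 1 / ε ≤ (K : ℝ) := Nat.le_ceil _
  have hinv : 1 < 1 / ε := by
    rw [lt_div_iff₀ hε0]
    linarith
  have hK2 : (K : ℝ) ≤ 2 / ε := by
    have : (K : ℝ) < 1 / ε + 1 := Nat.ceil_lt_add_one (by positivity)
    have e : 2 / ε = 1 / ε + 1 / ε := by ring
    linarith
  have hKpos : 0 < K := by
    have : (0 : ℝ) < K := by linarith
    exact_mod_cast this
  have hKε : 1 ≤ (K : ℝ) * ε := by
    have := mul_le_mul_of_nonneg_right hK1 hε0.le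
    rwa [div_mul_cancel₀ _ hε0.ne'] at this
  have hn := hnat n K hKpos A (by
    intro B hB
    have h1 := hfar B hB
    have h2 : ((n : ℝ)) ^ 2 ≤ (K : ℝ) * (hamming A B : ℝ) := by
      calc ((n : ℝ)) ^ 2 = 1 * (n : ℝ) ^ 2 := by ring
        _ ≤ ((K : ℝ) * ε) * (n : ℝ) ^ 2 := mul_le_mul_of_nonneg_right hKε (by positivity)
        _ = (K : ℝ) * (ε * (n : ℝ) ^ 2) := by ring
        _ ≤ (K : ℝ) * (hamming A B : ℝ) := mul_le_mul_of_nonneg_left h1 (by positivity)
    exact_mod_cast h2)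
  have hreal : ((n : ℝ)) ^ 4 ≤ 2 ^ a * (K : ℝ) ^ e * (copyCount H A : ℝ) := by exact_mod_cast hn
  have hKe : (K : ℝ) ^ e ≤ (2 / ε) ^ e := pow_le_pow_left₀ (by positivity) hK2 e
  have hεe : 0 < ε ^ e := by positivity
  have hc1 : ε ^ 36 ≤ ε ^ e := pow_le_pow_of_le_one hε0.le hε1.le he
  have hc2 : (2 : ℝ) ^ (a + e) ≤ 2 ^ 188 := pow_le_pow_right₀ (by norm_num) hae
  have hc3 : ε ^ 36 / 2 ^ 188 ≤ ε ^ e / 2 ^ (a + e) :=
    div_le_div₀ hεe.le hc1 (by positivity) hc2
  calc ε ^ 36 / 2 ^ 188 * (n : ℝ) ^ 4 ≤ ε ^ e / 2 ^ (a + e) * (n : ℝ) ^ 4 :=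
        mul_le_mul_of_nonneg_right hc3 (by positivity)
    _ ≤ ε ^ e / 2 ^ (a + e) * (2 ^ a * (K : ℝ) ^ e * (copyCount H A : ℝ)) :=
        mul_le_mul_of_nonneg_left hreal (by positivity)
    _ ≤ ε ^ e / 2 ^ (a + e) * (2 ^ a * (2 / ε) ^ e * (copyCount H A : ℝ)) := by
        apply mul_le_mul_of_nonneg_left _ (by positivity)
        apply mul_le_mul_of_nonneg_right _ (by positivity)
        exact mul_le_mul_of_nonneg_left hKe (by positivity)
    _ = (copyCount H A : ℝ) := by
        rw [div_pow, pow_add]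
        field_simp

end Vale.Agent.Lib.P037
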