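import Mathlib
import Vale.Agent.Lib.P037.Main
import Vale.Agent.Lib.P037.GMain
import Vale.Agent.Lib.P037.Symm
import Vale.Agent.Lib.P037.Easy2

open Finset

namespace Vale.Agent.Lib.P037

variable {n : ℕ}

theorem hamming_self (A : Fin n → Fin n → Bool) : hamming A A = 0 := by
  unfold hamming
  simp

theorem Rem_I2 : Rem I2 := by
  apply Rem_of_nat I2 144 36 (by norm_num) (by norm_num)
  intro n K hK A hfar
  have h1 := nat_removal K hK A (fun B hB => hfar B (noQuad_isFree B hB))
  exact le_trans h1 (Nat.mul_le_mul_left _ (N4_le_copyCount A))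

theorem Rem_G2 : Rem G2 := by
  apply Rem_of_nat G2 160 28 (by norm_num) (by norm_num)
  intro n K hK A hfar
  have h1 := nat_removalG K hK A (fun B hB => hfar B (noG_isFree B hB))
  exact le_trans h1 (Nat.mul_le_mul_left _ (NG_le_copyCount A))

/-- the pattern with a row of ones above a row of zeros -/
def R2 : Fin 2 → Fin 2 → Bool := ![![true, true], ![false, false]]

/-- the all ones pattern -/
def J2 : Fin 2 → Fin 2 → Bool := ![![true, true], ![true, true]]

theorem NR_le_copyCount (A : Fin n → Fin n → Bool) : NR A ≤ copyCount R2 A := by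
  classical
  unfold NR copyCount
  rw [← Set.ncard_coe_finset]
  apply Set.ncard_le_ncard_of_injOn
    (fun q : (Fin n × Fin n) × (Fin n × Fin n) => (![q.1.1, q.1.2], ![q.2.1, q.2.2]))
  · intro q hq
    simp only [coe_filter, mem_univ, true_and, Set.mem_setOf_eq] at hq
    obtain ⟨hr, hc, h1, h2, h3, h4⟩ := hq
    refine ⟨?_, ?_, ?_⟩
    · intro i j hij
      fin_cases i <;> fin_cases j <;> simp_all
    · intro i j hij
      fin_cases i <;> fin_cases j <;> simp_all
    · intro i j
      fin_cases i <;> fin_cases j <;> simp [R2, h1, h2, h3, h4]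
  · intro q _ q' _ hqq
    simp only [Prod.mk.injEq] at hqq
    have a1 := congrFun hqq.1 0
    have a2 := congrFun hqq.1 1
    have a3 := congrFun hqq.2 0
    have a4 := congrFun hqq.2 1
    simp at a1 a2 a3 a4
    ext <;> simp [a1, a2, a3, a4]

theorem NJ_le_copyCount (A : Fin n → Fin n → Bool) : NJ A ≤ copyCount J2 A := by
  classical
  unfold NJ copyCount
  rw [← Set.ncard_coe_finset]
  apply Set.ncard_le_ncard_of_injOn
    (fun q : (Fin n × Fin n) × (Fin n × Fin n) => (![q.1.1, q.1.2], ![q.2.1, q.2.2]))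
  · intro q hq
    simp only [coe_filter, mem_univ, true_and, Set.mem_setOf_eq] at hq
    obtain ⟨hr, hc, h1, h2, h3, h4⟩ := hq
    refine ⟨?_, ?_, ?_⟩
    · intro i j hij
      fin_cases i <;> fin_cases j <;> simp_all
    · intro i j hij
      fin_cases i <;> fin_cases j <;> simp_all
    · intro i j
      fin_cases i <;> fin_cases j <;> simp [J2, h1, h2, h3, h4]
  · intro q _ q' _ hqq
    simp only [Prod.mk.injEq] at hqq
    have a1 := congrFun hqq.1 0
    have a2 := congrFun hqq.1 1
    have a3 := congrFun hqq.2 0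
    have a4 := congrFun hqq.2 1
    simp at a1 a2 a3 a4
    ext <;> simp [a1, a2, a3, a4]

theorem isFree_R2_of_NR (A : Fin n → Fin n → Bool) (h : NR A = 0) : IsFree R2 A := by
  unfold IsFree
  rw [Set.eq_empty_iff_forall_notMem]
  rintro ⟨f, g⟩ ⟨hf, hg, hfg⟩
  simp only at hf hg hfg
  unfold NR at h
  rw [card_eq_zero, filter_eq_empty_iff] at h
  exact h (mem_univ ((f 0, f 1), (g 0, g 1))) ⟨hf (by decide), hg (by decide),
    by rw [hfg]; rfl, by rw [hfg]; rfl, by rw [hfg]; rfl, by rw [hfg]; rfl⟩

theorem isFree_J2_of_NJ (A : Fin n → Fin n → Bool) (h : NJ A = 0) : IsFree J2 A := by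
  unfold IsFree
  rw [Set.eq_empty_iff_forall_notMem]
  rintro ⟨f, g⟩ ⟨hf, hg, hfg⟩
  simp only at hf hg hfg
  unfold NJ at h
  rw [card_eq_zero, filter_eq_empty_iff] at h
  exact h (mem_univ ((f 0, f 1), (g 0, g 1))) ⟨hf (by decide), hg (by decide),
    by rw [hfg]; rfl, by rw [hfg]; rfl, by rw [hfg]; rfl, by rw [hfg]; rfl⟩

theorem Rem_R2 : Rem R2 := by
  apply Rem_of_nat R2 12 8 (by norm_num) (by norm_num)
  intro n K hK A hfar
  rcases Nat.eq_zero_or_pos (NR A) with h0 | h0
  · have h1 := hfar A (isFree_R2_of_NR A h0)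
    rw [hamming_self] at h1
    have h2 : n = 0 := by
      by_contra hn
      have : 0 < n ^ 2 := by positivity
      omega
    subst h2
    simp
  · have h1 := natR K hK A h0 (by
      intro B hB
      apply hfar B
      unfold IsFree
      rw [Set.eq_empty_iff_forall_notMem]
      rintro ⟨f, g⟩ ⟨hf, hg, hfg⟩
      simp only at hf hg hfg
      have e1 : B (f 0) (g 0) = true := by rw [hfg]; rfl
      have e2 : B (f 1) (g 0) = false := by rw [hfg]; rfl
      have e3 := hB (f 0) (f 1) (g 0) (hf (by decide)) e1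
      rw [e2] at e3
      exact absurd e3 (by simp))
    exact le_trans h1 (Nat.mul_le_mul_left _ (NR_le_copyCount A))

theorem Rem_J2 : Rem J2 := by
  apply Rem_of_nat J2 12 8 (by norm_num) (by norm_num)
  intro n K hK A hfar
  rcases Nat.eq_zero_or_pos (NJ A) with h0 | h0
  · have h1 := hfar A (isFree_J2_of_NJ A h0)
    rw [hamming_self] at h1
    have h2 : n = 0 := by
      by_contra hn
      have : 0 < n ^ 2 := by positivity
      omega
    subst h2
    simp
  · have h1 := natJ K hK A h0 (by
      apply hfar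
      unfold IsFree
      rw [Set.eq_empty_iff_forall_notMem]
      rintro ⟨f, g⟩ ⟨hf, hg, hfg⟩
      have e1 := hfg 0 0
      simp [J2] at e1)
    exact le_trans h1 (Nat.mul_le_mul_left _ (NJ_le_copyCount A))

theorem Rem_congr {H H' : Fin 2 → Fin 2 → Bool} (h : ∀ i j, H i j = H' i j) (hH : Rem H) :
    Rem H' := by
  have : H = H' := by
    funext i j
    exact h i j
  rw [← this]
  exact hH

theorem Rem_entries (a b c d : Bool) : Rem ![![a, b], ![c, d]] := by
  cases a <;> cases b <;> cases c <;> cases d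
  all_goals first
    | exact Rem_congr (by decide) Rem_J2
    | exact Rem_congr (by decide) (Rem_cmpl _ Rem_J2)
    | exact Rem_congr (by decide) Rem_R2
    | exact Rem_congr (by decide) (Rem_cmpl _ Rem_R2)
    | exact Rem_congr (by decide) (Rem_trsp _ Rem_R2)
    | exact Rem_congr (by decide) (Rem_cmpl _ (Rem_trsp _ Rem_R2))
    | exact Rem_congr (by decide) Rem_I2
    | exact Rem_congr (by decide) (Rem_cmpl _ Rem_I2)
    | exact Rem_congr (by decide) Rem_G2
    | exact Rem_congr (by decide) (Rem_revR _ Rem_G2)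
    | exact Rem_congr (by decide) (Rem_revC _ Rem_G2)
    | exact Rem_congr (by decide) (Rem_revR _ (Rem_revC _ Rem_G2))
    | exact Rem_congr (by decide) (Rem_cmpl _ Rem_G2)
    | exact Rem_congr (by decide) (Rem_cmpl _ (Rem_revR _ Rem_G2))
    | exact Rem_congr (by decide) (Rem_cmpl _ (Rem_revC _ Rem_G2))
    | exact Rem_congr (by decide) (Rem_cmpl _ (Rem_revR _ (Rem_revC _ Rem_G2)))

theorem Rem_all (H : Fin 2 → Fin 2 → Bool) : Rem H := by
  apply Rem_congr _ (Rem_entries (H 0 0) (H 0 1) (H 1 0) (H 1 1))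
  intro i j
  fin_cases i <;> fin_cases j <;> rfl

end Vale.Agent.Lib.P037
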