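import Mathlib
import Vale.Agent.Lib.P037.Main

open Finset

namespace Vale.Agent.Lib.P037

variable {n : ℕ}

theorem real_removal_I2 (ε : ℝ) (hε0 : 0 < ε) (hε1 : ε < 1) (A : Fin n → Fin n → Bool)
    (hfar : ∀ B : Fin n → Fin n → Bool, IsFree I2 B → ε * (n : ℝ) ^ 2 ≤ (hamming A B : ℝ)) :
    ε ^ 36 / 2 ^ 180 * (n : ℝ) ^ 4 ≤ (copyCount I2 A : ℝ) := by
  set K : ℕ := ⌈1 / ε⌉₊ with hKdef
  have hK1 : 1 / ε ≤ (K : ℝ) := Nat.le_ceil _
  have hinv : 1 < 1 / ε := by
    rw [lt_div_iff₀ hε0]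
    linarith
  have hK2 : (K : ℝ) ≤ 2 / ε := by
    have : (K : ℝ) < 1 / ε + 1 := Nat.ceil_lt_add_one (by positivity)
    have e : 2 / ε = 1 / ε + 1 / ε := by ring
    linarith
  have hKpos : 0 < K := by
    have : (0 : ℝ) < K := by linarith
    exact_mod_cast this
  have hKε : 1 ≤ (K : ℝ) * ε := by
    have := mul_le_mul_of_nonneg_right hK1 hε0.le
    rwa [div_mul_cancel₀ _ hε0.ne'] at this
  have hnat := nat_removal K hKpos A (by
    intro B hB
    have h1 := hfar B (noQuad_isFree B hB)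
    have h2 : ((n : ℝ)) ^ 2 ≤ (K : ℝ) * (hamming A B : ℝ) := by
      calc ((n : ℝ)) ^ 2 = 1 * (n : ℝ) ^ 2 := by ring
        _ ≤ ((K : ℝ) * ε) * (n : ℝ) ^ 2 := mul_le_mul_of_nonneg_right hKε (by positivity)
        _ = (K : ℝ) * (ε * (n : ℝ) ^ 2) := by ring
        _ ≤ (K : ℝ) * (hamming A B : ℝ) := mul_le_mul_of_nonneg_left h1 (by positivity)
    have h3 : n ^ 2 ≤ K * hamming A B := by exact_mod_cast h2
    exact h3)
  have hreal : ((n : ℝ)) ^ 4 ≤ 2 ^ 144 * (K : ℝ) ^ 36 * (N4 A : ℝ) := by exact_mod_cast hnat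
  have hK36 : (K : ℝ) ^ 36 ≤ (2 / ε) ^ 36 := pow_le_pow_left₀ (by positivity) hK2 36
  have hN : (N4 A : ℝ) ≤ (copyCount I2 A : ℝ) := by exact_mod_cast N4_le_copyCount A
  have hε36 : 0 < ε ^ 36 := by positivity
  calc ε ^ 36 / 2 ^ 180 * (n : ℝ) ^ 4
      ≤ ε ^ 36 / 2 ^ 180 * (2 ^ 144 * (K : ℝ) ^ 36 * (N4 A : ℝ)) :=
        mul_le_mul_of_nonneg_left hreal (by positivity)
    _ ≤ ε ^ 36 / 2 ^ 180 * (2 ^ 144 * (2 / ε) ^ 36 * (N4 A : ℝ)) := by
        apply mul_le_mul_of_nonneg_left _ (by positivity)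
        apply mul_le_mul_of_nonneg_right _ (by positivity)
        exact mul_le_mul_of_nonneg_left hK36 (by positivity)
    _ = (N4 A : ℝ) := by
        rw [div_pow]
        field_simp
    _ ≤ _ := hN

/-- entrywise complement -/
def compl {k m : ℕ} (A : Fin k → Fin m → Bool) : Fin k → Fin m → Bool := fun i j => !A i j

theorem compl_compl {k m : ℕ} (A : Fin k → Fin m → Bool) : compl (compl A) = A := by
  funext i j
  simp [compl]

theorem copies_compl {k : ℕ} (H : Fin k → Fin k → Bool) (A : Fin n → Fin n → Bool) :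
    copies (compl H) (compl A) = copies H A := by
  ext p
  simp [copies, compl]

theorem hamming_compl (A B : Fin n → Fin n → Bool) :
    hamming (compl A) (compl B) = hamming A B := by
  unfold hamming compl
  congr 1
  ext p
  simp

theorem compl_I2 : compl I2 = ![![false, true], ![true, false]] := by
  funext i j
  fin_cases i <;> fin_cases j <;> rfl

theorem real_removal (H : Fin 2 → Fin 2 → Bool)
    (hH : H = ![![true, false], ![false, true]] ∨ H = ![![false, true], ![true, false]])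
    (ε : ℝ) (hε0 : 0 < ε) (hε1 : ε < 1) (A : Fin n → Fin n → Bool)
    (hfar : ∀ B : Fin n → Fin n → Bool, IsFree H B → ε * (n : ℝ) ^ 2 ≤ (hamming A B : ℝ)) :
    ε ^ 36 / 2 ^ 180 * (n : ℝ) ^ 4 ≤ (copyCount H A : ℝ) := by
  rcases hH with rfl | rfl
  · exact real_removal_I2 ε hε0 hε1 A hfar
  · rw [← compl_I2] at hfar ⊢
    have h1 := real_removal_I2 ε hε0 hε1 (compl A) (by
      intro B hB
      have h2 := hfar (compl B) (by
        unfold IsFree at hB ⊢
        rw [copies_compl]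
        exact hB)
      rw [← hamming_compl, compl_compl] at h2
      exact h2)
    unfold copyCount at h1 ⊢
    rw [← copies_compl, compl_compl] at h1
    exact h1

end Vale.Agent.Lib.P037
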